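import Mathlib

/-!
# Covering by random translates: the abstract comparison theorem

A finite group `G` acts on `α`; `H`, `F` are finite subsets. If for every `U ⊆ H` the proportion
of `g` with `gU = U` is at most `q ^ |U|`, then the proportion of `g` with `gF ⊆ H` is at most
`(e h_{|H|} q) ^ |F|`, where `h_s` is the harmonic number.
-/

namespace VP064

open Finset

section Abs

variable {G α : Type*} [Group G] [Fintype G] [DecidableEq α] (ρ : G →* Equiv.Perm α)

/-- The image of a finite set under the action. -/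
def mv (g : G) (A : Finset α) : Finset α := A.map (ρ g).toEmbedding

omit [Fintype G] [DecidableEq α] in
lemma mv_card (g : G) (A : Finset α) : (mv ρ g A).card = A.card := by
  simp [mv]

omit [Fintype G] [DecidableEq α] in
lemma mv_mul (g h : G) (A : Finset α) : mv ρ (g * h) A = mv ρ g (mv ρ h A) := by
  ext x
  simp only [mv, Finset.mem_map, Equiv.coe_toEmbedding, map_mul, Equiv.Perm.mul_apply]
  constructor
  · rintro ⟨a, ha, rfl⟩
    exact ⟨_, ⟨a, ha, rfl⟩, rfl⟩
  · rintro ⟨_, ⟨a, ha, rfl⟩, rfl⟩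
    exact ⟨a, ha, rfl⟩

omit [Fintype G] in
lemma mv_union (g : G) (A B : Finset α) : mv ρ g (A ∪ B) = mv ρ g A ∪ mv ρ g B := by
  simp [mv, Finset.map_union]

omit [Fintype G] [DecidableEq α] in
lemma mv_subset_iff (g : G) (A H : Finset α) : mv ρ g A ⊆ H ↔ ∀ f ∈ A, ρ g f ∈ H := by
  constructor
  · intro h f hf
    exact h (by simp only [mv, Finset.mem_map, Equiv.coe_toEmbedding]; exact ⟨f, hf, rfl⟩)
  · intro h x hx
    simp only [mv, Finset.mem_map, Equiv.coe_toEmbedding] at hx
    obtain ⟨f, hf, rfl⟩ := hx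
    exact h f hf

/-- Number (as a real) of group elements moving `V` into `H`. -/
noncomputable def cc (H V : Finset α) : ℝ :=
  ∑ g : G, if mv ρ g V ⊆ H then (1 : ℝ) else 0

/-- `∑_g z^{|gF ∖ U|}`. -/
noncomputable def QQ (F U : Finset α) (z : ℝ) : ℝ :=
  ∑ g : G, ∏ f ∈ F, if ρ g f ∈ U then (1 : ℝ) else z

lemma cc_nonneg (H V : Finset α) : 0 ≤ cc ρ H V :=
  Finset.sum_nonneg fun g _ => by split_ifs <;> norm_num

lemma cc_pos {H V : Finset α} (h : V ⊆ H) : 0 < cc ρ H V := by
  apply Finset.sum_pos'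
  · intro g _
    split_ifs <;> norm_num
  · refine ⟨1, Finset.mem_univ _, ?_⟩
    rw [if_pos]
    · norm_num
    · rw [mv_subset_iff]
      intro f hf
      simpa using h hf

lemma cc_mv (H V : Finset α) (a : G) : cc ρ H (mv ρ a V) = cc ρ H V := by
  unfold cc
  simp only [← mv_mul]
  exact Equiv.sum_comp (Equiv.mulRight a) fun g => if mv ρ g V ⊆ H then (1 : ℝ) else 0

lemma cc_empty (H : Finset α) : cc ρ H ∅ = Fintype.card G := by
  simp [cc, mv]

/-- averaging identity 1 -/
lemma sum_cc_union (H U A : Finset α) :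
    ∑ a : G, cc ρ H (U ∪ mv ρ a A) = cc ρ H U * cc ρ H A := by
  unfold cc
  rw [Finset.sum_comm, Finset.sum_mul]
  apply Finset.sum_congr rfl
  intro g _
  have h1 : ∀ a : G, (if mv ρ g (U ∪ mv ρ a A) ⊆ H then (1 : ℝ) else 0) =
      (if mv ρ g U ⊆ H then (1 : ℝ) else 0) * (if mv ρ (g * a) A ⊆ H then (1 : ℝ) else 0) := by
    intro a
    have h0 : mv ρ g (U ∪ mv ρ a A) ⊆ H ↔ mv ρ g U ⊆ H ∧ mv ρ (g * a) A ⊆ H := by
      rw [mv_union, Finset.union_subset_iff, mv_mul]
    by_cases h1 : mv ρ g U ⊆ H <;> by_cases h2 : mv ρ (g * a) A ⊆ H <;> simp [h0, h1, h2]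
  simp only [h1]
  rw [← Finset.mul_sum]
  congr 1
  exact Equiv.sum_comp (Equiv.mulLeft g) fun a => if mv ρ a A ⊆ H then (1 : ℝ) else 0

/-- the weight of a subset `A` of `F` -/
noncomputable def om (F : Finset α) (y : ℝ) (A : Finset α) : ℝ :=
  (1 - y) ^ A.card * y ^ (F \ A).card

lemma om_sum (F : Finset α) (y : ℝ) (z : α → ℝ) :
    ∑ A ∈ F.powerset, om F y A * ∏ f ∈ A, z f = ∏ f ∈ F, ((1 - y) * z f + y) := by
  rw [Finset.prod_add]
  apply Finset.sum_congr rfl
  intro A _
  rw [om, Finset.prod_mul_distrib]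
  simp only [Finset.prod_const]
  ring

lemma sum_om_cc (F H : Finset α) (y : ℝ) :
    ∑ A ∈ F.powerset, om F y A * cc ρ H A = QQ ρ F H y := by
  unfold cc QQ
  simp only [Finset.mul_sum]
  rw [Finset.sum_comm]
  apply Finset.sum_congr rfl
  intro g _
  have h1 : ∀ A : Finset α, (if mv ρ g A ⊆ H then (1 : ℝ) else 0) =
      ∏ f ∈ A, (if ρ g f ∈ H then (1 : ℝ) else 0) := by
    intro A
    by_cases h : ∀ f ∈ A, ρ g f ∈ H
    · rw [if_pos ((mv_subset_iff ρ g A H).mpr h)]
      symm
      apply Finset.prod_eq_one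
      intro f hf
      rw [if_pos (h f hf)]
    · rw [if_neg fun h' => h ((mv_subset_iff ρ g A H).mp h')]
      push Not at h
      obtain ⟨f, hf, hfH⟩ := h
      symm
      apply Finset.prod_eq_zero hf
      rw [if_neg hfH]
  simp only [h1]
  rw [om_sum]
  apply Finset.prod_congr rfl
  intro f _
  split_ifs <;> ring

lemma sum_om_w (F U : Finset α) (y w : ℝ) :
    ∑ A ∈ F.powerset, om F y A * ∑ a : G, w ^ (mv ρ a A \ U).card =
      QQ ρ F U (y + (1 - y) * w) := by
  unfold QQ
  simp only [Finset.mul_sum]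
  rw [Finset.sum_comm]
  apply Finset.sum_congr rfl
  intro g _
  have h1 : ∀ A : Finset α, w ^ (mv ρ g A \ U).card =
      ∏ f ∈ A, (if ρ g f ∈ U then (1 : ℝ) else w) := by
    intro A
    have h2 : ∏ f ∈ A, (if ρ g f ∈ U then (1 : ℝ) else w) =
        ∏ x ∈ mv ρ g A, (if x ∈ U then (1 : ℝ) else w) := by
      rw [mv, Finset.prod_map]
      rfl
    rw [h2, Finset.prod_ite, Finset.prod_const_one, one_mul, Finset.prod_const]
    congr 2
    ext x
    simp
  simp only [h1]
  rw [om_sum]
  apply Finset.prod_congr rfl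
  intro f _
  split_ifs <;> ring

lemma om_nonneg (F : Finset α) {y : ℝ} (hy0 : 0 ≤ y) (hy1 : y ≤ 1) (A : Finset α) :
    0 ≤ om F y A :=
  mul_nonneg (pow_nonneg (by linarith) _) (pow_nonneg hy0 _)

/-- Lemma A. -/
lemma exists_ext (F H U : Finset α) {y w : ℝ} (hy0 : 0 ≤ y) (hy1 : y ≤ 1)
    (h : cc ρ H U * QQ ρ F U (y + (1 - y) * w) < cc ρ H U * QQ ρ F H y) :
    ∃ X : Finset α, w ^ (X \ U).card * cc ρ H U < cc ρ H (U ∪ X) := by
  by_contra hcon
  push Not at hcon
  have h1 : cc ρ H U * QQ ρ F H y =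
      ∑ A ∈ F.powerset, om F y A * ∑ a : G, cc ρ H (U ∪ mv ρ a A) := by
    simp only [sum_cc_union]
    rw [← sum_om_cc, Finset.mul_sum]
    apply Finset.sum_congr rfl
    intro A _
    ring
  have h2 : cc ρ H U * QQ ρ F U (y + (1 - y) * w) =
      ∑ A ∈ F.powerset, om F y A * ∑ a : G, w ^ (mv ρ a A \ U).card * cc ρ H U := by
    rw [← sum_om_w, Finset.mul_sum]
    apply Finset.sum_congr rfl
    intro A _
    rw [← Finset.sum_mul]
    ring
  rw [h1, h2] at h
  apply absurd h
  rw [not_lt]
  apply Finset.sum_le_sum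
  intro A _
  apply mul_le_mul_of_nonneg_left _ (om_nonneg F hy0 hy1 A)
  apply Finset.sum_le_sum
  intro a _
  exact hcon _

/-- The weight used at a set of size `u`. -/
noncomputable def ww (s : ℕ) (q : ℝ) (u : ℕ) : ℝ := Real.exp 1 * (1 - (u : ℝ) / s) * q

lemma ww_anti {s : ℕ} {q : ℝ} (hq : 0 < q) {u v : ℕ} (h : u ≤ v) : ww s q v ≤ ww s q u := by
  unfold ww
  have : (u : ℝ) / s ≤ (v : ℝ) / s := by
    apply div_le_div_of_nonneg_right _ (by positivity)
    exact_mod_cast h
  have he : 0 < Real.exp 1 := Real.exp_pos 1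
  apply mul_le_mul_of_nonneg_right _ hq.le
  apply mul_le_mul_of_nonneg_left _ he.le
  linarith

lemma ww_pos {s : ℕ} {q : ℝ} (hq : 0 < q) {u : ℕ} (h : u < s) : 0 < ww s q u := by
  unfold ww
  have hs : (0 : ℝ) < s := by
    have : 0 < s := by omega
    exact_mod_cast this
  have : (u : ℝ) / s < 1 := by
    rw [div_lt_one hs]
    exact_mod_cast h
  have he : 0 < Real.exp 1 := Real.exp_pos 1
  have h2 : (0 : ℝ) < 1 - (u : ℝ) / s := by linarith
  positivity

lemma prod_ww_ge {s : ℕ} {q : ℝ} (hq : 0 < q) (hs : 0 < s) :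
    q ^ s ≤ ∏ i ∈ Finset.Ico 0 s, ww s q i := by
  have hs' : (0 : ℝ) < s := by exact_mod_cast hs
  have h1 : ∏ i ∈ Finset.Ico 0 s, ww s q i = (Real.exp 1) ^ s * q ^ s * (s.factorial / (s : ℝ) ^ s) := by
    have h2 : ∀ i ∈ Finset.Ico 0 s, ww s q i = Real.exp 1 * q * (((s - i : ℕ) : ℝ) / s) := by
      intro i hi
      rw [Finset.mem_Ico] at hi
      unfold ww
      rw [Nat.cast_sub hi.2.le]
      field_simp
    rw [Finset.prod_congr rfl h2, Finset.prod_mul_distrib, Finset.prod_div_distrib]
    simp only [Finset.prod_const, Nat.card_Ico, Nat.sub_zero]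
    rw [mul_pow, ← Finset.range_eq_Ico, ← Nat.cast_prod, ← Nat.descFactorial_eq_prod_range,
      Nat.descFactorial_self]
  rw [h1]
  have h3 : (s : ℝ) ^ s / s.factorial ≤ Real.exp s :=
    Real.pow_div_factorial_le_exp (s : ℝ) hs'.le s
  have h4 : (Real.exp 1) ^ s = Real.exp s := by
    rw [← Real.exp_nat_mul, mul_one]
  rw [h4]
  have hf : (0 : ℝ) < s.factorial := by exact_mod_cast s.factorial_pos
  have hp : (0 : ℝ) < (s : ℝ) ^ s := by positivity
  have h5 : 1 ≤ Real.exp s * (s.factorial / (s : ℝ) ^ s) := by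
    rw [div_le_iff₀ hf] at h3
    rw [mul_div_assoc', le_div_iff₀ hp, one_mul]
    exact h3
  calc q ^ s = q ^ s * 1 := by ring
    _ ≤ q ^ s * (Real.exp s * (s.factorial / (s : ℝ) ^ s)) :=
      mul_le_mul_of_nonneg_left h5 (by positivity)
    _ = _ := by ring

/-- Key step. -/
lemma step (F H : Finset α) (hH : H.Nonempty) {q y : ℝ} (hq : 0 < q) (hy0 : 0 ≤ y) (hy1 : y ≤ 1)
    (hcH : cc ρ H H ≤ q ^ H.card * Fintype.card G) :
    ∃ U, U ⊂ H ∧ QQ ρ F H y ≤ QQ ρ F U (y + (1 - y) * ww H.card q U.card) := by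
  by_contra hcon
  push Not at hcon
  set s := H.card with hs
  have hspos : 0 < s := Finset.card_pos.mpr hH
  have key : ∀ k : ℕ, ∀ U : Finset α, U ⊂ H → s - U.card ≤ k →
      cc ρ H U * ∏ i ∈ Finset.Ico U.card s, ww s q i < cc ρ H H := by
    intro k
    induction k with
    | zero =>
      intro U hU hk
      have := Finset.card_lt_card hU
      omega
    | succ k ih =>
      intro U hU hk
      have hUs : U.card < s := Finset.card_lt_card hU
      have hcU : 0 < cc ρ H U := cc_pos ρ hU.subset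
      obtain ⟨X, hX⟩ := exists_ext ρ F H U (w := ww s q U.card) hy0 hy1
        (mul_lt_mul_of_pos_left (hcon U hU) hcU)
      -- X is not inside U
      have hw0 : 0 < ww s q U.card := ww_pos hq hUs
      have hpos : 0 < cc ρ H (U ∪ X) := lt_of_le_of_lt (by positivity) hX
      have hne : (X \ U).card ≠ 0 := by
        intro h0
        rw [Finset.card_eq_zero, Finset.sdiff_eq_empty_iff_subset] at h0
        rw [Finset.sdiff_eq_empty_iff_subset.mpr h0, Finset.union_eq_left.mpr h0] at hX
        simp at hX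
      -- a translate inside H
      obtain ⟨g, hg⟩ : ∃ g : G, mv ρ g (U ∪ X) ⊆ H := by
        by_contra hno
        push Not at hno
        have : cc ρ H (U ∪ X) = 0 := by
          unfold cc
          apply Finset.sum_eq_zero
          intro g _
          rw [if_neg (hno g)]
        linarith
      set U' := mv ρ g (U ∪ X) with hU'
      have hcU' : cc ρ H U' = cc ρ H (U ∪ X) := cc_mv ρ H _ g
      have hcard : U'.card = U.card + (X \ U).card := by
        rw [hU', mv_card, ← Finset.union_sdiff_self_eq_union, Finset.card_union_of_disjoint]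
        exact Finset.disjoint_sdiff
      have hU's : U'.card ≤ s := Finset.card_le_card hg
      have hprod : ∏ i ∈ Finset.Ico U.card U'.card, ww s q i ≤ ww s q U.card ^ (X \ U).card := by
        have h1 : ww s q U.card ^ (X \ U).card = ∏ i ∈ Finset.Ico U.card U'.card, ww s q U.card := by
          rw [Finset.prod_const, Nat.card_Ico, hcard]
          congr 1
          omega
        rw [h1]
        apply Finset.prod_le_prod
        · intro i hi
          rw [Finset.mem_Ico] at hi
          exact (ww_pos hq (by omega)).le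
        · intro i hi
          rw [Finset.mem_Ico] at hi
          exact ww_anti hq hi.1
      have hlt : cc ρ H U * ∏ i ∈ Finset.Ico U.card U'.card, ww s q i < cc ρ H U' := by
        rw [hcU']
        refine lt_of_le_of_lt ?_ hX
        rw [mul_comm]
        exact mul_le_mul_of_nonneg_right hprod hcU.le
      have hsplit : ∏ i ∈ Finset.Ico U.card s, ww s q i =
          (∏ i ∈ Finset.Ico U.card U'.card, ww s q i) * ∏ i ∈ Finset.Ico U'.card s, ww s q i := by
        rw [Finset.prod_Ico_consecutive _ (by omega) hU's]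
      have hpos2 : 0 < ∏ i ∈ Finset.Ico U'.card s, ww s q i := by
        apply Finset.prod_pos
        intro i hi
        rw [Finset.mem_Ico] at hi
        exact ww_pos hq hi.2
      by_cases hEq : U' = H
      · rw [hEq] at hlt
        exact hlt
      · have hss : U' ⊂ H := Finset.ssubset_iff_subset_ne.mpr ⟨hg, hEq⟩
        have h3 := ih U' hss (by omega)
        rw [hsplit, ← mul_assoc]
        exact lt_trans (mul_lt_mul_of_pos_right hlt hpos2) h3
  have hfin := key s ∅ (Finset.ssubset_iff_subset_ne.mpr ⟨Finset.empty_subset _, hH.ne_empty.symm⟩)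
    (by omega)
  rw [cc_empty, Finset.card_empty] at hfin
  have h6 := prod_ww_ge (s := s) hq hspos
  have h7 : (Fintype.card G : ℝ) * q ^ s ≤
      (Fintype.card G : ℝ) * ∏ i ∈ Finset.Ico 0 s, ww s q i :=
    mul_le_mul_of_nonneg_left h6 (by positivity)
  have h8 : (Fintype.card G : ℝ) * q ^ s = q ^ s * Fintype.card G := by ring
  linarith

/-- `h_s` -/
noncomputable def hh (s : ℕ) : ℝ := ∑ i ∈ Finset.range s, 1 / ((i : ℝ) + 1)

lemma hh_nonneg (s : ℕ) : 0 ≤ hh s := Finset.sum_nonneg fun i _ => by positivity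

lemma hh_sub {u s : ℕ} (h : u < s) : (1 - (u : ℝ) / s) + hh u ≤ hh s := by
  have hs : (0 : ℝ) < s := by
    have : 0 < s := by omega
    exact_mod_cast this
  have h1 : hh s = hh u + ∑ i ∈ Finset.Ico u s, 1 / ((i : ℝ) + 1) := by
    unfold hh
    rw [Finset.range_eq_Ico, Finset.range_eq_Ico, Finset.sum_Ico_consecutive _ (Nat.zero_le _) h.le]
  have h2 : ∑ i ∈ Finset.Ico u s, 1 / (s : ℝ) ≤ ∑ i ∈ Finset.Ico u s, 1 / ((i : ℝ) + 1) := by
    apply Finset.sum_le_sum
    intro i hi
    rw [Finset.mem_Ico] at hi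
    apply one_div_le_one_div_of_le (by positivity)
    exact_mod_cast hi.2
  rw [Finset.sum_const, Nat.card_Ico, nsmul_eq_mul, Nat.cast_sub h.le] at h2
  have h3 : ((s : ℝ) - u) * (1 / s) = 1 - (u : ℝ) / s := by
    field_simp
  rw [h3] at h2
  linarith

lemma QQ_le_card (F U : Finset α) {y : ℝ} (hy0 : 0 ≤ y) (hy1 : y ≤ 1) :
    QQ ρ F U y ≤ Fintype.card G := by
  unfold QQ
  calc ∑ g : G, ∏ f ∈ F, (if ρ g f ∈ U then (1 : ℝ) else y) ≤ ∑ g : G, (1 : ℝ) := by
        apply Finset.sum_le_sum
        intro g _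
        apply Finset.prod_le_one
        · intro f _
          split_ifs <;> [norm_num; exact hy0]
        · intro f _
          split_ifs <;> [norm_num; exact hy1]
    _ = Fintype.card G := by simp

lemma QQ_mono (F U : Finset α) {y z : ℝ} (hy0 : 0 ≤ y) (hyz : y ≤ z) :
    QQ ρ F U y ≤ QQ ρ F U z := by
  unfold QQ
  apply Finset.sum_le_sum
  intro g _
  apply Finset.prod_le_prod
  · intro f _
    split_ifs <;> [norm_num; exact hy0]
  · intro f _
    split_ifs <;> [norm_num; exact hyz]

lemma QQ_empty (F : Finset α) (y : ℝ) : QQ ρ F ∅ y = y ^ F.card * Fintype.card G := by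
  simp [QQ, mul_comm]

lemma QQ_bound {q : ℝ} (hq : 0 < q) (F : Finset α) (k : ℕ) :
    ∀ H : Finset α, H.card ≤ k →
      (∀ U, U ⊆ H → cc ρ U U ≤ q ^ U.card * Fintype.card G) →
      ∀ y : ℝ, 0 ≤ y → y ≤ 1 →
        QQ ρ F H y ≤ (y + Real.exp 1 * hh H.card * q) ^ F.card * Fintype.card G := by
  have he : 0 < Real.exp 1 := Real.exp_pos 1
  induction k with
  | zero =>
    intro H hk _ y _ _
    have hH : H = ∅ := Finset.card_eq_zero.mp (by omega)
    subst hH
    rw [QQ_empty]
    simp [hh]
  | succ k ih =>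
    intro H hk hyp y hy0 hy1
    by_cases hH : H.Nonempty
    · by_cases h1 : 1 ≤ y + Real.exp 1 * hh H.card * q
      · calc QQ ρ F H y ≤ Fintype.card G := QQ_le_card ρ F H hy0 hy1
          _ = 1 * Fintype.card G := by ring
          _ ≤ _ := by
            apply mul_le_mul_of_nonneg_right _ (by positivity)
            exact one_le_pow₀ h1
      · push Not at h1
        obtain ⟨U, hU, hle⟩ := step ρ F H hH hq hy0 hy1 (hyp H (Finset.Subset.refl _))
        have hUs : U.card < H.card := Finset.card_lt_card hU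
        have hsub := hh_sub hUs
        have hw : 0 < ww H.card q U.card := ww_pos hq hUs
        have hwle : y + ww H.card q U.card + Real.exp 1 * hh U.card * q ≤
            y + Real.exp 1 * hh H.card * q := by
          have h2 : ww H.card q U.card + Real.exp 1 * hh U.card * q =
              Real.exp 1 * q * ((1 - (U.card : ℝ) / H.card) + hh U.card) := by
            unfold ww
            ring
          have h3 : Real.exp 1 * hh H.card * q = Real.exp 1 * q * hh H.card := by ring
          rw [add_assoc, h2, h3]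
          have : 0 < Real.exp 1 * q := by positivity
          have := mul_le_mul_of_nonneg_left hsub this.le
          linarith
        have hhU : 0 ≤ Real.exp 1 * hh U.card * q := by
          have := hh_nonneg U.card
          positivity
        have hz0 : 0 ≤ y + (1 - y) * ww H.card q U.card := by
          have : 0 ≤ (1 - y) * ww H.card q U.card := mul_nonneg (by linarith) hw.le
          linarith
        have hzw : y + (1 - y) * ww H.card q U.card ≤ y + ww H.card q U.card := by
          nlinarith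
        have hz1 : y + (1 - y) * ww H.card q U.card ≤ 1 := by linarith
        have h4 := ih U (by omega) (fun V hV => hyp V (hV.trans hU.subset)) _ hz0 hz1
        refine hle.trans (h4.trans ?_)
        apply mul_le_mul_of_nonneg_right _ (by positivity)
        apply pow_le_pow_left₀ (by linarith)
        linarith
    · rw [Finset.not_nonempty_iff_eq_empty] at hH
      subst hH
      rw [QQ_empty]
      simp [hh]

/-- The abstract comparison theorem. -/
theorem abs_compare {q : ℝ} (hq : 0 < q) (F H : Finset α)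
    (hyp : ∀ U, U ⊆ H → cc ρ U U ≤ q ^ U.card * Fintype.card G) :
    cc ρ H F ≤ (Real.exp 1 * hh H.card * q) ^ F.card * Fintype.card G := by
  have h := QQ_bound ρ hq F H.card H le_rfl hyp 0 le_rfl zero_le_one
  rw [zero_add] at h
  refine le_trans (le_of_eq ?_) h
  unfold cc QQ
  apply Finset.sum_congr rfl
  intro g _
  by_cases hg : ∀ f ∈ F, ρ g f ∈ H
  · rw [if_pos ((mv_subset_iff ρ g F H).mpr hg)]
    symm
    apply Finset.prod_eq_one
    intro f hf
    rw [if_pos (hg f hf)]
  · rw [if_neg fun h' => hg ((mv_subset_iff ρ g F H).mp h')]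
    push Not at hg
    obtain ⟨f, hf, hfH⟩ := hg
    symm
    apply Finset.prod_eq_zero hf
    rw [if_neg hfH]

end Abs

end VP064
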