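import Vale.Agent.P064.Defs

/-!
# Translation between copies of graphs and the action of the symmetric group on edge sets
-/

namespace VP064

open Finset

/-- The image of a finite set of (unordered) pairs under a permutation of the vertices. -/
def act {n : ℕ} (g : Equiv.Perm (Fin n)) (A : Finset (Sym2 (Fin n))) :
    Finset (Sym2 (Fin n)) :=
  A.map ⟨Sym2.map g, Sym2.map.injective g.injective⟩

open Classical in
/-- Edge set of a graph `F` on `X`, transported to `Fin n` along an injection. -/
noncomputable def edgesOf {n : ℕ} {X : Type} [Fintype X] (F : SimpleGraph X)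
    (j : X ↪ Fin n) : Finset (Sym2 (Fin n)) :=
  (F.map j).edgeFinset

/-- the copy given by an isomorphism with a subgraph -/
def copyOfIso {V X : Type} {G : SimpleGraph V} {F : SimpleGraph X} (G' : G.Subgraph)
    (e : F ≃g G'.coe) : SimpleGraph.Copy F G :=
  ⟨G'.hom.comp e.toHom, SimpleGraph.Subgraph.hom_injective.comp e.injective⟩

lemma toSubgraph_copyOfIso {V X : Type} {G : SimpleGraph V} {F : SimpleGraph X} (G' : G.Subgraph)
    (e : F ≃g G'.coe) : (copyOfIso G' e).toSubgraph = G' := by
  simp [copyOfIso, SimpleGraph.Copy.toSubgraph, SimpleGraph.Subgraph.map_comp]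

lemma copyOfIso_bijective {V X : Type} (G : SimpleGraph V) (F : SimpleGraph X) :
    Function.Bijective (fun x : (Σ G' : G.Subgraph, F ≃g G'.coe) => copyOfIso x.1 x.2) := by
  constructor
  · rintro ⟨G1, e1⟩ ⟨G2, e2⟩ h
    have h' : copyOfIso G1 e1 = copyOfIso G2 e2 := h
    have hG : G1 = G2 := by
      rw [← toSubgraph_copyOfIso G1 e1, ← toSubgraph_copyOfIso G2 e2, h']
    subst hG
    have he : e1 = e2 := by
      ext a
      have h2 := congrArg (fun f : SimpleGraph.Copy F G => f a) h'
      exact h2
    rw [he]
  · intro f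
    refine ⟨⟨f.toSubgraph, f.isoToSubgraph⟩, ?_⟩
    ext a
    rfl

open Classical in
lemma card_iso_subgraph {V X : Type} [Fintype V] [Fintype X] (G : SimpleGraph V)
    (F : SimpleGraph X) (G' : G.Subgraph) :
    Nat.card (F ≃g G'.coe) = if Nonempty (F ≃g G'.coe) then Nat.card (F ≃g F) else 0 := by
  split_ifs with h
  · obtain ⟨e0⟩ := h
    apply Nat.card_congr
    exact
      { toFun := fun e => e.trans e0.symm
        invFun := fun e => e.trans e0
        left_inv := fun e => by ext a; simp
        right_inv := fun e => by ext a; simp }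
  · rw [not_nonempty_iff] at h
    exact Nat.card_of_isEmpty

open Classical in
lemma labelled_eq_natcard {V X : Type} [Fintype V] [Fintype X] (G : SimpleGraph V)
    (F : SimpleGraph X) : G.labelledCopyCount F = Nat.card (SimpleGraph.Copy F G) := by
  unfold SimpleGraph.labelledCopyCount
  rw [Nat.card_eq_fintype_card]

open Classical in
/-- Labelled copies are unlabelled copies times automorphisms. -/
theorem labelled_eq {V X : Type} [Fintype V] [Fintype X] (G : SimpleGraph V)
    (F : SimpleGraph X) :
    G.labelledCopyCount F = G.copyCount F * Nat.card (F ≃g F) := by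
  have hfin : ∀ G' : G.Subgraph, Finite (F ≃g G'.coe) := fun G' =>
    Finite.of_injective (fun e : F ≃g G'.coe => (e : X → G'.verts)) DFunLike.coe_injective
  have h1 : G.labelledCopyCount F = Nat.card (SimpleGraph.Copy F G) := labelled_eq_natcard G F
  have h2 : Nat.card (SimpleGraph.Copy F G) = Nat.card (Σ G' : G.Subgraph, F ≃g G'.coe) :=
    (Nat.card_eq_of_bijective _ (copyOfIso_bijective G F)).symm
  have h3 : Nat.card (Σ G' : G.Subgraph, F ≃g G'.coe)
      = ∑ G' : G.Subgraph, Nat.card (F ≃g G'.coe) := by
    rw [Nat.card_sigma]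
  rw [h1, h2, h3]
  simp only [card_iso_subgraph]
  rw [← Finset.sum_filter, Finset.sum_const, smul_eq_mul]
  unfold SimpleGraph.copyCount
  congr 2

open Classical in
/-- number of labelled copies as the number of injections preserving adjacency -/
lemma labelled_eq_card {n : ℕ} {X : Type} [Fintype X] (F : SimpleGraph X)
    (G : SimpleGraph (Fin n)) :
    G.labelledCopyCount F
      = Nat.card {φ : X ↪ Fin n // ∀ a b, F.Adj a b → G.Adj (φ a) (φ b)} := by
  rw [labelled_eq_natcard]
  apply Nat.card_congr
  exact
    { toFun := fun f => ⟨f.toEmbedding, fun a b h => f.toHom.map_adj h⟩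
      invFun := fun φ => ⟨⟨φ.1, fun h => φ.2 _ _ h⟩, φ.1.injective⟩
      left_inv := fun f => by ext a; rfl
      right_inv := fun φ => by ext a; rfl }

lemma exists_perm_extending {n : ℕ} {X : Type} (φ ψ : X ↪ Fin n) :
    ∃ h : Equiv.Perm (Fin n), ∀ a, h (φ a) = ψ a := by
  classical
  set e : {x // x ∈ Set.range φ} ≃ {x // x ∈ Set.range ψ} :=
    (Equiv.ofInjective φ φ.injective).symm.trans (Equiv.ofInjective ψ ψ.injective) with he
  refine ⟨e.extendSubtype, fun a => ?_⟩
  rw [Equiv.extendSubtype_apply_of_mem e (φ a) (Set.mem_range_self a)]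
  rw [he]
  simp [Equiv.ofInjective_symm_apply]

open Classical in
/-- averaging over the symmetric group -/
lemma count_perm {n : ℕ} {X : Type} [Fintype X] (j : X ↪ Fin n) (Q : (X ↪ Fin n) → Prop) :
    (univ.filter fun g : Equiv.Perm (Fin n) => Q (j.trans g.toEmbedding)).card
        * Fintype.card (X ↪ Fin n)
      = n.factorial * (univ.filter fun φ : X ↪ Fin n => Q φ).card := by
  have h1 : ∀ φ : X ↪ Fin n,
      (univ.filter fun g : Equiv.Perm (Fin n) => Q (φ.trans g.toEmbedding)).card
      = (univ.filter fun g : Equiv.Perm (Fin n) => Q (j.trans g.toEmbedding)).card := by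
    intro φ
    obtain ⟨h, hh⟩ := exists_perm_extending j φ
    apply Finset.card_bij (fun g _ => g * h)
    · intro g hg
      simp only [mem_filter, mem_univ, true_and] at hg ⊢
      have e : j.trans (g * h).toEmbedding = φ.trans g.toEmbedding := by
        ext a
        simp [hh]
      rw [e]
      exact hg
    · intro g1 _ g2 _ h12
      exact mul_right_cancel h12
    · intro g hg
      refine ⟨g * h⁻¹, ?_, by simp⟩
      simp only [mem_filter, mem_univ, true_and] at hg ⊢
      have e : φ.trans (g * h⁻¹).toEmbedding = j.trans g.toEmbedding := by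
        ext a
        simp [← hh]
      rw [e]
      exact hg
  have h2 : ∀ g : Equiv.Perm (Fin n),
      (univ.filter fun φ : X ↪ Fin n => Q (φ.trans g.toEmbedding)).card
      = (univ.filter fun φ : X ↪ Fin n => Q φ).card := by
    intro g
    apply Finset.card_bij (fun φ _ => φ.trans g.toEmbedding)
    · intro φ hφ
      simp only [mem_filter, mem_univ, true_and] at hφ ⊢
      exact hφ
    · intro φ1 _ φ2 _ h12
      ext a
      have h3 := congrArg (fun f : X ↪ Fin n => f a) h12
      have h4 : g (φ1 a) = g (φ2 a) := h3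
      rw [g.injective h4]
    · intro φ hφ
      simp only [mem_filter, mem_univ, true_and] at hφ
      have e : (φ.trans g.symm.toEmbedding).trans g.toEmbedding = φ := by
        ext a
        simp
      refine ⟨φ.trans g.symm.toEmbedding, ?_, e⟩
      simp only [mem_filter, mem_univ, true_and]
      rw [e]
      exact hφ
  have h3 : ∑ φ : X ↪ Fin n, ∑ g : Equiv.Perm (Fin n),
        (if Q (φ.trans g.toEmbedding) then 1 else 0)
      = ∑ g : Equiv.Perm (Fin n), ∑ φ : X ↪ Fin n,
        (if Q (φ.trans g.toEmbedding) then 1 else 0) := Finset.sum_comm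
  simp only [← Finset.card_filter] at h3
  rw [Finset.sum_congr rfl fun φ _ => h1 φ, Finset.sum_congr rfl fun g _ => h2 g,
    Finset.sum_const, Finset.sum_const, Finset.card_univ, Finset.card_univ, smul_eq_mul,
    smul_eq_mul, Fintype.card_perm, Fintype.card_fin] at h3
  rw [mul_comm]
  exact h3

open Classical in
lemma act_subset_iff {n : ℕ} {X : Type} [Fintype X] (F : SimpleGraph X) (j : X ↪ Fin n)
    (G : SimpleGraph (Fin n)) (g : Equiv.Perm (Fin n)) :
    act g (edgesOf F j) ⊆ G.edgeFinset ↔
      ∀ a b, F.Adj a b → G.Adj ((j.trans g.toEmbedding) a) ((j.trans g.toEmbedding) b) := by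
  constructor
  · intro h a b hab
    have h1 : s(g (j a), g (j b)) ∈ act g (edgesOf F j) := by
      unfold act edgesOf
      rw [Finset.mem_map]
      refine ⟨s(j a, j b), ?_, rfl⟩
      rw [SimpleGraph.mem_edgeFinset, SimpleGraph.mem_edgeSet, SimpleGraph.map_adj]
      exact ⟨a, b, hab, rfl, rfl⟩
    have h2 := h h1
    rw [SimpleGraph.mem_edgeFinset, SimpleGraph.mem_edgeSet] at h2
    exact h2
  · intro h z hz
    unfold act edgesOf at hz
    rw [Finset.mem_map] at hz
    obtain ⟨w, hw, rfl⟩ := hz
    rw [SimpleGraph.mem_edgeFinset] at hw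
    induction w using Sym2.ind with
    | _ x y =>
      rw [SimpleGraph.mem_edgeSet, SimpleGraph.map_adj] at hw
      obtain ⟨a, b, hab, rfl, rfl⟩ := hw
      rw [SimpleGraph.mem_edgeFinset]
      show G.Adj (g (j a)) (g (j b))
      exact h a b hab

open Classical in
/-- The proportion of permutations mapping the edges of `F` into `G` is
`N(G,F) / N(K_n,F)`. -/
theorem prob_map_subset {n : ℕ} {X : Type} [Fintype X] (F : SimpleGraph X) (j : X ↪ Fin n)
    (G : SimpleGraph (Fin n)) :
    ((univ.filter fun g : Equiv.Perm (Fin n) =>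
        act g (edgesOf F j) ⊆ G.edgeFinset).card : ℝ) *
      ((⊤ : SimpleGraph (Fin n)).copyCount F : ℝ) =
    (n.factorial : ℝ) * (G.copyCount F : ℝ) := by
  obtain ⟨Q, hQ⟩ : ∃ Q : (X ↪ Fin n) → Prop,
      ∀ φ, Q φ ↔ ∀ a b, F.Adj a b → G.Adj (φ a) (φ b) := ⟨_, fun φ => Iff.rfl⟩
  have h1 := count_perm j Q
  have h2 : (univ.filter fun g : Equiv.Perm (Fin n) => Q (j.trans g.toEmbedding)).card
      = (univ.filter fun g : Equiv.Perm (Fin n) =>
        act g (edgesOf F j) ⊆ G.edgeFinset).card := by
    apply congrArg
    apply Finset.filter_congr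
    intro g _
    rw [hQ]
    exact (act_subset_iff F j G g).symm
  have h3 : (univ.filter fun φ : X ↪ Fin n => Q φ).card = G.labelledCopyCount F := by
    have h31 : Nat.card {φ : X ↪ Fin n // ∀ a b, F.Adj a b → G.Adj (φ a) (φ b)}
        = Nat.card {φ : X ↪ Fin n // Q φ} :=
      Nat.card_congr (Equiv.subtypeEquivRight fun φ => (hQ φ).symm)
    rw [labelled_eq_card, h31, Nat.card_eq_fintype_card, Fintype.card_subtype]
  have h4 : Fintype.card (X ↪ Fin n) = (⊤ : SimpleGraph (Fin n)).labelledCopyCount F := by
    rw [labelled_eq_card, ← Nat.card_eq_fintype_card]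
    apply Nat.card_congr
    exact (Equiv.subtypeUnivEquiv fun φ a b hab => by
      rw [SimpleGraph.top_adj]
      exact fun e => hab.ne (φ.injective e)).symm
  rw [h2, h3, h4, labelled_eq, labelled_eq] at h1
  have hfin : Finite (F ≃g F) :=
    Finite.of_injective (fun e : F ≃g F => (e : X → X)) DFunLike.coe_injective
  have hpos : 0 < Nat.card (F ≃g F) := Nat.card_pos_iff.mpr ⟨⟨SimpleGraph.Iso.refl⟩, hfin⟩
  have h5 : (univ.filter fun g : Equiv.Perm (Fin n) =>
        act g (edgesOf F j) ⊆ G.edgeFinset).card * (⊤ : SimpleGraph (Fin n)).copyCount F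
      = n.factorial * G.copyCount F := by
    apply Nat.eq_of_mul_eq_mul_right hpos
    rw [mul_assoc, mul_assoc]
    exact h1
  exact_mod_cast h5

open Classical in
/-- probability that a fixed set of pairs is contained in the edge set -/
lemma sum_weight_superset {n : ℕ} (p : ℝ) (B : Finset (Sym2 (Fin n)))
    (hB : ∀ e ∈ B, ¬ e.IsDiag) :
    ∑ G : SimpleGraph (Fin n), (if B ⊆ G.edgeFinset then gnpWeight n p G else 0) = p ^ B.card := by
  set D : Finset (Sym2 (Fin n)) := univ.filter fun e => ¬ e.IsDiag with hD
  have hBD : B ⊆ D := fun e he => by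
    simp only [hD, mem_filter, mem_univ, true_and]
    exact hB e he
  have hDcard : D.card = n.choose 2 := by
    have h1 := Sym2.card_subtype_not_diag (α := Fin n)
    rw [Fintype.card_subtype, Fintype.card_fin] at h1
    exact h1
  have hE : ∀ G : SimpleGraph (Fin n), G.edgeSet.ncard = G.edgeFinset.card := fun G => by
    rw [Set.ncard_eq_toFinset_card', SimpleGraph.edgeFinset]
  have h1 : ∑ G : SimpleGraph (Fin n), (if B ⊆ G.edgeFinset then gnpWeight n p G else 0)
      = ∑ E ∈ (D \ B).powerset, p ^ (E ∪ B).card * (1 - p) ^ (D.card - (E ∪ B).card) := by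
    rw [← Finset.sum_filter]
    apply Finset.sum_bij (fun G _ => G.edgeFinset \ B)
    · intro G _
      rw [Finset.mem_powerset]
      intro e he
      rw [Finset.mem_sdiff] at he ⊢
      refine ⟨?_, he.2⟩
      simp only [hD, mem_filter, mem_univ, true_and]
      exact G.not_isDiag_of_mem_edgeSet (SimpleGraph.mem_edgeFinset.mp he.1)
    · intro G1 h1 G2 h2 h12
      simp only [mem_filter, mem_univ, true_and] at h1 h2
      have h3 : G1.edgeFinset = G2.edgeFinset := by
        rw [← Finset.sdiff_union_of_subset h1, ← Finset.sdiff_union_of_subset h2, h12]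
      exact SimpleGraph.edgeFinset_inj.mp h3
    · intro E hE
      rw [Finset.mem_powerset] at hE
      have hnd : ∀ e ∈ E ∪ B, ¬ e.IsDiag := by
        intro e he
        rcases Finset.mem_union.mp he with h | h
        · have h4 := (Finset.mem_sdiff.mp (hE h)).1
          simpa only [hD, mem_filter, mem_univ, true_and] using h4
        · exact hB e h
      have hG : ∀ inst : Fintype (SimpleGraph.fromEdgeSet ((E ∪ B : Finset (Sym2 (Fin n))) :
          Set (Sym2 (Fin n)))).edgeSet, @SimpleGraph.edgeFinset _ _ inst = E ∪ B := by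
        intro inst
        ext e
        rw [SimpleGraph.mem_edgeFinset, SimpleGraph.edgeSet_fromEdgeSet]
        constructor
        · intro h
          exact_mod_cast h.1
        · intro h
          exact ⟨by exact_mod_cast h, hnd e h⟩
      refine ⟨SimpleGraph.fromEdgeSet ((E ∪ B : Finset (Sym2 (Fin n))) : Set (Sym2 (Fin n))),
        ?_, ?_⟩
      · simp only [mem_filter, mem_univ, true_and]
        rw [hG]
        exact Finset.subset_union_right
      · rw [hG, Finset.union_sdiff_right]
        apply Finset.sdiff_eq_self_of_disjoint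
        rw [Finset.disjoint_left]
        intro e he hb
        exact (Finset.mem_sdiff.mp (hE he)).2 hb
    · intro G hG
      simp only [mem_filter, mem_univ, true_and] at hG
      unfold gnpWeight
      rw [Finset.sdiff_union_of_subset hG, hE, hDcard]
  rw [h1]
  have h2 : ∀ E ∈ (D \ B).powerset, p ^ (E ∪ B).card * (1 - p) ^ (D.card - (E ∪ B).card)
      = p ^ B.card * (p ^ E.card * (1 - p) ^ ((D \ B).card - E.card)) := by
    intro E hE
    rw [Finset.mem_powerset] at hE
    have hdis : Disjoint E B := by
      rw [Finset.disjoint_left]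
      intro e he hb
      exact (Finset.mem_sdiff.mp (hE he)).2 hb
    have h3 : (E ∪ B).card = E.card + B.card := Finset.card_union_of_disjoint hdis
    have h4 : (D \ B).card = D.card - B.card := Finset.card_sdiff_of_subset hBD
    have h5 : D.card - (E ∪ B).card = (D \ B).card - E.card := by omega
    rw [h5, h3, pow_add]
    ring
  rw [Finset.sum_congr rfl h2, ← Finset.mul_sum, Finset.sum_pow_mul_eq_add_pow]
  simp

open Classical in
/-- `E N(G(n,p),F) = N(K_n,F) p^{e(F)}`. -/
theorem expCopies_eq {n : ℕ} {X : Type} [Fintype X] (F : SimpleGraph X) (p : ℝ) :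
    expCopies n p F =
      ((⊤ : SimpleGraph (Fin n)).copyCount F : ℝ) * p ^ F.edgeSet.ncard := by
  by_cases hX : Nonempty (X ↪ Fin n)
  · obtain ⟨j⟩ := hX
    have hnf : (0 : ℝ) < (n.factorial : ℝ) := by exact_mod_cast n.factorial_pos
    have hcard : ∀ g : Equiv.Perm (Fin n), (act g (edgesOf F j)).card = F.edgeSet.ncard := by
      intro g
      unfold act edgesOf
      rw [Finset.card_map]
      have h1 : (F.map j).edgeSet = Sym2.map j '' F.edgeSet := SimpleGraph.edgeSet_map j F
      have h2 : (F.map j).edgeFinset.card = (F.map j).edgeSet.ncard := by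
        rw [Set.ncard_eq_toFinset_card', SimpleGraph.edgeFinset]
      rw [h2, h1]
      exact Set.ncard_image_of_injective _ (Sym2.map.injective j.injective)
    have hnd : ∀ g : Equiv.Perm (Fin n), ∀ e ∈ act g (edgesOf F j), ¬ e.IsDiag := by
      intro g e he
      unfold act edgesOf at he
      rw [Finset.mem_map] at he
      obtain ⟨w, hw, rfl⟩ := he
      have h1 := (F.map j).not_isDiag_of_mem_edgeSet (SimpleGraph.mem_edgeFinset.mp hw)
      intro h2
      apply h1
      have h2' : (Sym2.map g w).IsDiag := h2
      exact (Sym2.isDiag_map g.injective).mp h2'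
    have h1 : (n.factorial : ℝ) * expCopies n p F
        = (n.factorial : ℝ) * (((⊤ : SimpleGraph (Fin n)).copyCount F : ℝ)
          * p ^ F.edgeSet.ncard) := by
      unfold expCopies
      rw [Finset.mul_sum]
      have h2 : ∀ G : SimpleGraph (Fin n),
          (n.factorial : ℝ) * (gnpWeight n p G * (G.copyCount F : ℝ))
          = ((⊤ : SimpleGraph (Fin n)).copyCount F : ℝ) * ∑ g : Equiv.Perm (Fin n),
            (if act g (edgesOf F j) ⊆ G.edgeFinset then gnpWeight n p G else 0) := by
        intro G
        have h3 := prob_map_subset F j G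
        rw [← Finset.sum_filter, Finset.sum_const, nsmul_eq_mul]
        calc (n.factorial : ℝ) * (gnpWeight n p G * (G.copyCount F : ℝ))
            = gnpWeight n p G * ((n.factorial : ℝ) * (G.copyCount F : ℝ)) := by ring
          _ = _ := by rw [← h3]; ring
      rw [Finset.sum_congr rfl fun G _ => h2 G, ← Finset.mul_sum, Finset.sum_comm]
      have h4 : ∀ g : Equiv.Perm (Fin n), ∑ G : SimpleGraph (Fin n),
          (if act g (edgesOf F j) ⊆ G.edgeFinset then gnpWeight n p G else 0)
          = p ^ F.edgeSet.ncard := by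
        intro g
        rw [sum_weight_superset p _ (hnd g), hcard g]
      rw [Finset.sum_congr rfl fun g _ => h4 g, Finset.sum_const, Finset.card_univ,
        Fintype.card_perm, Fintype.card_fin, nsmul_eq_mul]
      ring
    exact mul_left_cancel₀ hnf.ne' h1
  · have h0 : ∀ G : SimpleGraph (Fin n), G.copyCount F = 0 := by
      intro G
      rw [SimpleGraph.copyCount_eq_zero]
      rintro ⟨f⟩
      exact hX ⟨f.toEmbedding⟩
    unfold expCopies
    simp [h0]

end VP064
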