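import Vale.Agent.P064.Defs
import Vale.Agent.P064.Trans
import Vale.Agent.P064.Abs

/-!
# `p̃_E ≤ C log n · p_E`
-/

namespace VP064

open Finset

/-- The symmetric group acting on unordered pairs. -/
def symRep (n : ℕ) : Equiv.Perm (Fin n) →* Equiv.Perm (Sym2 (Fin n)) where
  toFun g := ⟨Sym2.map g, Sym2.map g.symm,
    fun x => by rw [Sym2.map_map]; simp,
    fun x => by rw [Sym2.map_map]; simp⟩
  map_one' := by
    ext x
    induction x with
    | _ a b => simp
  map_mul' g h := by
    ext x
    induction x with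
    | _ a b => simp

lemma symRep_apply (n : ℕ) (g : Equiv.Perm (Fin n)) (x : Sym2 (Fin n)) :
    symRep n g x = Sym2.map g x := rfl

lemma mv_eq_act {n : ℕ} (g : Equiv.Perm (Fin n)) (A : Finset (Sym2 (Fin n))) :
    mv (symRep n) g A = act g A := by
  ext x
  simp only [mv, act, Finset.mem_map, symRep_apply, Function.Embedding.coeFn_mk]

open Classical in
lemma cc_eq_card {n : ℕ} (H V : Finset (Sym2 (Fin n))) :
    cc (symRep n) H V =
      ((univ.filter fun g : Equiv.Perm (Fin n) => act g V ⊆ H).card : ℝ) := by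
  unfold cc
  simp only [mv_eq_act]
  rw [Finset.card_filter]
  push_cast
  apply Finset.sum_congr rfl
  intro g _
  by_cases h : act g V ⊆ H <;> simp [h]

open Classical in
lemma cc_graph {n : ℕ} {X : Type} [Fintype X] (F : SimpleGraph X) (j : X ↪ Fin n)
    (G : SimpleGraph (Fin n)) :
    cc (symRep n) G.edgeFinset (edgesOf F j) *
      ((⊤ : SimpleGraph (Fin n)).copyCount F : ℝ) =
    (n.factorial : ℝ) * (G.copyCount F : ℝ) := by
  rw [cc_eq_card]
  exact prob_map_subset F j G

lemma edgesOf_card {n : ℕ} {X : Type} [Fintype X] (F : SimpleGraph X) (j : X ↪ Fin n) :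
    (edgesOf F j).card = F.edgeSet.ncard := by
  classical
  have h1 : (edgesOf F j).card = (F.map j).edgeSet.ncard := by
    unfold edgesOf
    rw [Set.ncard_eq_toFinset_card']
    rfl
  rw [h1, SimpleGraph.edgeSet_map]
  exact Set.ncard_image_of_injective _ (Function.Embedding.injective _)

/-- The subgraph of `H` spanned by the edges that `j` sends into `U`; it has no isolated
vertices. -/
def subOf {n : ℕ} {W : Type} (H : SimpleGraph W) (j : W ↪ Fin n) (U : Finset (Sym2 (Fin n))) :
    H.Subgraph where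
  verts := {a | ∃ b, H.Adj a b ∧ s(j a, j b) ∈ U}
  Adj a b := H.Adj a b ∧ s(j a, j b) ∈ U
  adj_sub h := h.1
  edge_vert {a b} h := ⟨b, h⟩
  symm := ⟨fun a b h => ⟨h.1.symm, by rw [Sym2.eq_swap]; exact h.2⟩⟩

/-- the injection of the vertices of a subgraph -/
def jj {n : ℕ} {W : Type} {H : SimpleGraph W} (j : W ↪ Fin n) (F : H.Subgraph) :
    F.verts ↪ Fin n := (Function.Embedding.subtype _).trans j

open Classical in
lemma edgesOf_subOf {n : ℕ} {W : Type} [Fintype W] (H : SimpleGraph W) (j : W ↪ Fin n)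
    (U : Finset (Sym2 (Fin n))) (hU : U ⊆ edgesOf H j) :
    edgesOf (subOf H j U).coe (jj j (subOf H j U)) = U := by
  ext e
  unfold edgesOf
  rw [SimpleGraph.mem_edgeFinset]
  induction e with
  | _ x y =>
  rw [SimpleGraph.mem_edgeSet, SimpleGraph.map_adj]
  constructor
  · rintro ⟨a, b, hab, rfl, rfl⟩
    exact hab.2
  · intro he
    have h1 := hU he
    unfold edgesOf at h1
    rw [SimpleGraph.mem_edgeFinset, SimpleGraph.mem_edgeSet, SimpleGraph.map_adj] at h1
    obtain ⟨a, b, hab, rfl, rfl⟩ := h1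
    refine ⟨⟨a, b, hab, he⟩, ⟨b, a, hab.symm, by rw [Sym2.eq_swap]; exact he⟩, ⟨hab, he⟩, rfl, rfl⟩

/-- The graph with edge set `U`. -/
def gr {n : ℕ} (U : Finset (Sym2 (Fin n))) : SimpleGraph (Fin n) :=
  SimpleGraph.fromEdgeSet (U : Set (Sym2 (Fin n)))

open Classical in
lemma gr_edgeFinset {n : ℕ} {W : Type} [Fintype W] (H : SimpleGraph W) (j : W ↪ Fin n)
    (U : Finset (Sym2 (Fin n))) (hU : U ⊆ edgesOf H j) : (gr U).edgeFinset = U := by
  ext e
  rw [SimpleGraph.mem_edgeFinset, gr, SimpleGraph.edgeSet_fromEdgeSet]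
  constructor
  · intro h
    exact h.1
  · intro h
    refine ⟨h, ?_⟩
    have h1 := hU h
    unfold edgesOf at h1
    rw [SimpleGraph.mem_edgeFinset] at h1
    exact SimpleGraph.not_isDiag_of_mem_edgeSet _ h1

open Classical in
/-- At most one copy of the graph spanned by `U` in the graph with edge set `U`. -/
lemma copyCount_gr_le {n : ℕ} {W : Type} [Fintype W] (H : SimpleGraph W) (j : W ↪ Fin n)
    (U : Finset (Sym2 (Fin n))) (hU : U ⊆ edgesOf H j) :
    (gr U).copyCount (subOf H j U).coe ≤ 1 := by
  unfold SimpleGraph.copyCount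
  rw [Finset.card_le_one]
  have key : ∀ G' : (gr U).Subgraph, Nonempty ((subOf H j U).coe ≃g G'.coe) →
      (∀ a b, G'.Adj a b ↔ (gr U).Adj a b) ∧ (∀ a, a ∈ G'.verts ↔ ∃ b, G'.Adj a b) := by
    rintro G' ⟨e⟩
    constructor
    · -- edge counts
      have hc1 : G'.coe.edgeSet.ncard = (subOf H j U).coe.edgeSet.ncard := by
        rw [← Nat.card_coe_set_eq, ← Nat.card_coe_set_eq]
        exact Nat.card_congr e.symm.mapEdgeSet
      have hc2 : (subOf H j U).coe.edgeSet.ncard = U.card := by
        rw [← edgesOf_card (subOf H j U).coe (jj j (subOf H j U)), edgesOf_subOf H j U hU]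
      have hc3 : G'.edgeSet.ncard = U.card := by
        rw [← hc2, ← hc1, ← SimpleGraph.Subgraph.image_coe_edgeSet_coe]
        exact Set.ncard_image_of_injective _ (Sym2.map.injective Subtype.coe_injective)
      have hc4 : (gr U).edgeSet.ncard = U.card := by
        rw [Set.ncard_eq_toFinset_card']
        change (gr U).edgeFinset.card = _
        rw [gr_edgeFinset H j U hU]
      have hsub : G'.edgeSet ⊆ (gr U).edgeSet := G'.edgeSet_subset
      have heq : G'.edgeSet = (gr U).edgeSet :=
        Set.eq_of_subset_of_ncard_le hsub (by rw [hc3, hc4]) (Set.toFinite _)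
      intro a b
      rw [← SimpleGraph.Subgraph.mem_edgeSet, heq, SimpleGraph.mem_edgeSet]
    · intro a
      constructor
      · intro ha
        have hv := (e.symm ⟨a, ha⟩).2
        obtain ⟨b, hb⟩ := hv
        have hb' : (subOf H j U).Adj (e.symm ⟨a, ha⟩).1 b := hb
        have hbv : b ∈ (subOf H j U).verts := (subOf H j U).edge_vert hb'.symm
        have h1 : (subOf H j U).coe.Adj (e.symm ⟨a, ha⟩) ⟨b, hbv⟩ := hb'
        have h2 : G'.coe.Adj (e (e.symm ⟨a, ha⟩)) (e ⟨b, hbv⟩) := e.map_rel_iff.mpr h1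
        rw [RelIso.apply_symm_apply] at h2
        exact ⟨_, h2⟩
      · rintro ⟨b, hb⟩
        exact G'.edge_vert hb
  intro G1 h1 G2 h2
  have h1' : Nonempty ((subOf H j U).coe ≃g G1.coe) := by simpa using h1
  have h2' : Nonempty ((subOf H j U).coe ≃g G2.coe) := by simpa using h2
  obtain ⟨ha1, hv1⟩ := key G1 h1'
  obtain ⟨ha2, hv2⟩ := key G2 h2'
  apply SimpleGraph.Subgraph.ext
  · ext a
    rw [hv1, hv2]
    simp only [ha1, ha2]
  · ext a b
    rw [ha1, ha2]

/-- copies in a subgraph of a bigger graph -/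
lemma copyCount_le_of_copy {V V' X : Type} [Fintype V] [Fintype V'] [Fintype X]
    (G : SimpleGraph V) (G' : SimpleGraph V') (f : SimpleGraph.Copy G G') (F : SimpleGraph X) :
    G.copyCount F ≤ G'.copyCount F := by
  have h1 := labelled_eq G F
  have h2 := labelled_eq G' F
  have h3 : G.labelledCopyCount F ≤ G'.labelledCopyCount F := by
    classical
    unfold SimpleGraph.labelledCopyCount
    apply Fintype.card_le_of_injective (fun c : SimpleGraph.Copy F G => f.comp c)
    intro c c' hcc
    ext x
    have : (f.comp c) x = (f.comp c') x := by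
      simp only at hcc
      rw [hcc]
    simp only [SimpleGraph.Copy.comp_apply] at this
    exact f.injective this
  have hpos : 0 < Nat.card (F ≃g F) := by
    have : Finite (F ≃g F) :=
      Finite.of_injective (fun e : F ≃g F => (e.toEquiv : X ≃ X)) (fun a b h => by
        ext x
        exact congrFun (congrArg DFunLike.coe h) x)
    have : Nonempty (F ≃g F) := ⟨SimpleGraph.Iso.refl⟩
    exact Nat.card_pos
  rw [h1, h2] at h3
  exact Nat.le_of_mul_le_mul_right h3 hpos

/-- `H` maps into `H.map j`. -/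
def copyMap {n : ℕ} {W : Type} (H : SimpleGraph W) (j : W ↪ Fin n) :
    SimpleGraph.Copy H (H.map j) :=
  ⟨⟨j, fun {a b} h => by rw [SimpleGraph.map_adj]; exact ⟨a, b, h, rfl, rfl⟩⟩, j.injective⟩

open Classical in
/-- Main estimate for moving arbitrary sets `V` of pairs into (a copy of) `H`. -/
theorem main_cc {n : ℕ} {W : Type} [Fintype W] (H : SimpleGraph W) (j : W ↪ Fin n)
    {p : ℝ} (hp0 : 0 < p)
    (hp : ∀ F : H.Subgraph, 1 / 2 ≤ expCopies n p F.coe) (V : Finset (Sym2 (Fin n))) :
    cc (symRep n) (edgesOf H j) V ≤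
      (Real.exp 1 * hh (edgesOf H j).card * (2 * p)) ^ V.card * n.factorial := by
  have hcard : (Fintype.card (Equiv.Perm (Fin n)) : ℝ) = n.factorial := by
    rw [Fintype.card_perm, Fintype.card_fin]
  have := abs_compare (symRep n) (q := 2 * p) (by positivity) V (edgesOf H j) ?_
  · rw [hcard] at this
    exact this
  · intro U hU
    rw [hcard]
    by_cases hU0 : U = ∅
    · subst hU0
      rw [cc_empty, hcard]
      simp
    · have h1 := cc_graph (subOf H j U).coe (jj j (subOf H j U)) (gr U)
      rw [edgesOf_subOf H j U hU, gr_edgeFinset H j U hU] at h1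
      have h2 : ((gr U).copyCount (subOf H j U).coe : ℝ) ≤ 1 := by
        exact_mod_cast copyCount_gr_le H j U hU
      have h3 := hp (subOf H j U)
      rw [expCopies_eq, ← edgesOf_card (subOf H j U).coe (jj j (subOf H j U)),
        edgesOf_subOf H j U hU] at h3
      set N : ℝ := ((⊤ : SimpleGraph (Fin n)).copyCount (subOf H j U).coe : ℝ) with hN
      have hNpos : 0 < N := by
        by_contra hcon
        have : N = 0 := le_antisymm (not_lt.mp hcon) (by rw [hN]; positivity)
        rw [this] at h3
        norm_num at h3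
      have hUc : 1 ≤ U.card := Finset.card_pos.mpr (Finset.nonempty_iff_ne_empty.mpr hU0)
      have h4 : 1 ≤ N * (2 * p) ^ U.card := by
        rw [mul_pow]
        have h5 : (2 : ℝ) ≤ 2 ^ U.card := by
          calc (2 : ℝ) = 2 ^ 1 := by norm_num
            _ ≤ 2 ^ U.card := pow_le_pow_right₀ (by norm_num) hUc
        have h6 : 0 ≤ N * p ^ U.card := by positivity
        nlinarith
      have hcc : 0 ≤ cc (symRep n) U U := cc_nonneg _ _ _
      have hfac : (0 : ℝ) ≤ n.factorial := by positivity
      calc cc (symRep n) U U = cc (symRep n) U U * 1 := by ring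
        _ ≤ cc (symRep n) U U * (N * (2 * p) ^ U.card) :=
          mul_le_mul_of_nonneg_left h4 hcc
        _ = (cc (symRep n) U U * N) * (2 * p) ^ U.card := by ring
        _ = (n.factorial * ((gr U).copyCount (subOf H j U).coe : ℝ)) * (2 * p) ^ U.card := by
          rw [h1]
        _ ≤ (n.factorial * 1) * (2 * p) ^ U.card := by
          apply mul_le_mul_of_nonneg_right _ (by positivity)
          exact mul_le_mul_of_nonneg_left h2 hfac
        _ = _ := by ring

end VP064
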