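import Mathlib

/-!
# P064: thresholds for containing a copy of a graph

Definitions of the random graph `G(n,p)` (as explicit finite sums), of the expected number of
copies, of the threshold `p_c`, the expectation threshold `p_E` and the modified expectation
threshold `p̃_E`.
-/

namespace VP064

open Finset

/-- The probability that the random graph `G(n,p)` on the vertex set `Fin n` equals `G`. -/
noncomputable def gnpWeight (n : ℕ) (p : ℝ) (G : SimpleGraph (Fin n)) : ℝ :=
  p ^ G.edgeSet.ncard * (1 - p) ^ (n.choose 2 - G.edgeSet.ncard)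

open Classical in
/-- `E N(G(n,p),F)`: the expected number of (ordinary, unlabelled) copies of `F` in `G(n,p)`.
`G.copyCount F` is Mathlib's number of subgraphs of `G` isomorphic to `F`. -/
noncomputable def expCopies (n : ℕ) (p : ℝ) {W : Type} (F : SimpleGraph W) : ℝ :=
  ∑ G : SimpleGraph (Fin n), gnpWeight n p G * (G.copyCount F : ℝ)

open Classical in
/-- `Pr(N(G(n,p),H) > 0)`. -/
noncomputable def probContains (n : ℕ) (p : ℝ) {W : Type} (H : SimpleGraph W) : ℝ :=
  ∑ G : SimpleGraph (Fin n), if 0 < G.copyCount H then gnpWeight n p G else 0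

/-- The threshold `p_c(n,H)`. -/
noncomputable def pC (n : ℕ) {W : Type} (H : SimpleGraph W) : ℝ :=
  sInf {p : ℝ | 0 ≤ p ∧ p ≤ 1 ∧ 1 / 2 ≤ probContains n p H}

/-- The expectation threshold `p_E(n,H)`. -/
noncomputable def pE (n : ℕ) {W : Type} (H : SimpleGraph W) : ℝ :=
  sInf {p : ℝ | 0 ≤ p ∧ p ≤ 1 ∧ ∀ F : H.Subgraph, 1 / 2 ≤ expCopies n p F.coe}

/-- The modified expectation threshold `p̃_E(n,H)`. -/
noncomputable def pEt (n : ℕ) {W : Type} [Fintype W] (H : SimpleGraph W) : ℝ :=
  sInf {p : ℝ | 0 ≤ p ∧ p ≤ 1 ∧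
    ∀ F : H.Subgraph, (H.copyCount F.coe : ℝ) / 2 ≤ expCopies n p F.coe}

end VP064
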