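import Mathlib

/-!
# The spread lemma (Frankston-Kahn-Narayanan-Park / Park-Pham style, p-biased form)
-/

namespace VP064

open Finset

/-- Weight of `W` under the `p`-biased product measure on the subsets of `X`. -/
noncomputable def bw {X : Type*} [Fintype X] (p : ℝ) (W : Finset X) : ℝ :=
  p ^ W.card * (1 - p) ^ (Fintype.card X - W.card)

section Basics

variable {X : Type*} [DecidableEq X]

/-- expectation of `f` of a `p`-random subset of `s` -/
noncomputable def Ep (p : ℝ) (s : Finset X) (f : Finset X → ℝ) : ℝ :=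
  ∑ W ∈ s.powerset, p ^ W.card * (1 - p) ^ (s.card - W.card) * f W

lemma Ep_insert {a : X} {s : Finset X} (ha : a ∉ s) (p : ℝ) (f : Finset X → ℝ) :
    Ep p (insert a s) f = (1 - p) * Ep p s f + p * Ep p s (fun W => f (insert a W)) := by
  unfold Ep
  rw [Finset.sum_powerset_insert ha, Finset.mul_sum, Finset.mul_sum]
  congr 1
  · refine Finset.sum_congr rfl fun W hW => ?_
    have h1 : W.card ≤ s.card := Finset.card_le_card (Finset.mem_powerset.1 hW)
    have h2 : s.card + 1 - W.card = (s.card - W.card) + 1 := by omega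
    rw [Finset.card_insert_of_notMem ha, h2, pow_succ]
    ring
  · refine Finset.sum_congr rfl fun W hW => ?_
    have h1 : a ∉ W := fun h => ha (Finset.mem_powerset.1 hW h)
    rw [Finset.card_insert_of_notMem ha, Finset.card_insert_of_notMem h1,
      Nat.add_sub_add_right, pow_succ]
    ring

lemma Ep_lin (p : ℝ) (s : Finset X) (c e : ℝ) (g h : Finset X → ℝ) :
    Ep p s (fun W => c * g W + e * h W) = c * Ep p s g + e * Ep p s h := by
  unfold Ep
  rw [Finset.mul_sum, Finset.mul_sum, ← Finset.sum_add_distrib]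
  exact Finset.sum_congr rfl fun W _ => by ring

lemma Ep_union (p q : ℝ) (s : Finset X) : ∀ f : Finset X → ℝ,
    Ep p s (fun W => Ep q s (fun U => f (W ∪ U))) = Ep (1 - (1 - p) * (1 - q)) s f := by
  induction s using Finset.induction_on with
  | empty =>
    intro f
    simp [Ep]
  | insert a s ha ih =>
    intro f
    have h1 : ∀ W : Finset X, Ep q (insert a s) (fun U => f (W ∪ U))
        = (1 - q) * Ep q s (fun U => f (W ∪ U)) + q * Ep q s (fun U => f (insert a (W ∪ U))) := by
      intro W
      rw [Ep_insert ha]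
      simp only [Finset.union_insert]
    have h2 : (fun W => Ep q (insert a s) (fun U => f (W ∪ U)))
        = fun W => (1 - q) * Ep q s (fun U => f (W ∪ U))
          + q * Ep q s (fun U => f (insert a (W ∪ U))) := funext h1
    rw [Ep_insert ha, Ep_insert ha, h2, Ep_lin, ih f]
    have h3 : Ep p s (fun W => Ep q s (fun U => f (insert a (W ∪ U))))
        = Ep (1 - (1 - p) * (1 - q)) s (fun Z => f (insert a Z)) := ih (fun Z => f (insert a Z))
    rw [h3]
    have h4 : Ep p s (fun W => Ep q (insert a s) (fun U => f (insert a W ∪ U)))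
        = Ep (1 - (1 - p) * (1 - q)) s (fun Z => f (insert a Z)) := by
      have h5 : (fun W => Ep q (insert a s) (fun U => f (insert a W ∪ U)))
          = fun W => Ep q s (fun U => f (insert a (W ∪ U))) := by
        funext W
        rw [h1]
        simp only [Finset.insert_union, Finset.insert_idem]
        ring
      rw [h5, h3]
    rw [h4]
    ring

variable [Fintype X]

lemma Ep_univ (p : ℝ) (f : Finset X → ℝ) : Ep p univ f = ∑ W : Finset X, bw p W * f W := by
  unfold Ep bw
  rw [Finset.powerset_univ, Finset.card_univ]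

omit [DecidableEq X] in
lemma sum_bw (p : ℝ) : ∑ W : Finset X, bw p W = 1 := by
  classical
  have h := Finset.sum_pow_mul_eq_add_pow p (1 - p) (univ : Finset X)
  rw [Finset.powerset_univ, Finset.card_univ] at h
  unfold bw
  rw [h]
  simp

omit [DecidableEq X] in
lemma bw_nonneg {p : ℝ} (hp0 : 0 ≤ p) (hp1 : p ≤ 1) (W : Finset X) : 0 ≤ bw p W := by
  unfold bw
  have : 0 ≤ 1 - p := by linarith
  positivity

lemma bw_union_ge {p : ℝ} (hp0 : 0 ≤ p) (hp1 : p ≤ 1) {W T : Finset X} (h : Disjoint W T) :
    p ^ T.card * bw p W ≤ bw p (W ∪ T) := by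
  unfold bw
  rw [Finset.card_union_of_disjoint h, pow_add]
  have h1 : (1 - p) ^ (Fintype.card X - W.card)
      ≤ (1 - p) ^ (Fintype.card X - (W.card + T.card)) := by
    apply pow_le_pow_of_le_one (by linarith) (by linarith)
    omega
  have h2 : 0 ≤ p ^ T.card * p ^ W.card := by positivity
  nlinarith [mul_le_mul_of_nonneg_left h1 h2]

/-- union of two independent random sets -/
lemma union_lemma (p q : ℝ) (f : Finset X → ℝ) :
    ∑ W : Finset X, bw p W * ∑ U : Finset X, bw q U * f (W ∪ U)
      = ∑ Z : Finset X, bw (1 - (1 - p) * (1 - q)) Z * f Z := by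
  have h := Ep_union p q (univ : Finset X) f
  rw [Ep_univ, Ep_univ] at h
  rw [← h]
  exact Finset.sum_congr rfl fun W _ => by rw [Ep_univ]

end Basics

section Round

variable {X ι : Type*} [Fintype X] [DecidableEq X] [DecidableEq ι]

/-- the minimal leftovers -/
lemma exists_leftover (S : ι → Finset X) (I : Finset ι) :
    ∃ T : Finset X → ι → Finset X, ∀ W, ∀ i ∈ I,
      T W i ⊆ S i ∧ Disjoint W (T W i) ∧ (∃ j ∈ I, S j ⊆ W ∪ T W i) ∧
      (∀ j ∈ I, S j ⊆ W ∪ T W i → T W i ⊆ S j) := by
  have h : ∀ W : Finset X, ∀ i : ι, ∃ T : Finset X, i ∈ I →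
      (T ⊆ S i ∧ Disjoint W T ∧ (∃ j ∈ I, S j ⊆ W ∪ T) ∧
      (∀ j ∈ I, S j ⊆ W ∪ T → T ⊆ S j)) := by
    intro W i
    by_cases hi : i ∈ I
    · have hne : (I.filter (fun j => S j ⊆ W ∪ S i)).Nonempty :=
        ⟨i, Finset.mem_filter.2 ⟨hi, Finset.subset_union_right⟩⟩
      obtain ⟨j, hj, hmin⟩ := Finset.exists_min_image _ (fun j => (S j \ W).card) hne
      obtain ⟨hjI, hjS⟩ := Finset.mem_filter.1 hj
      refine ⟨S j \ W, fun _ => ⟨?_, ?_, ⟨j, hjI, ?_⟩, ?_⟩⟩
      · intro x hx
        obtain ⟨h1, h2⟩ := Finset.mem_sdiff.1 hx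
        exact (Finset.mem_union.1 (hjS h1)).resolve_left h2
      · exact Finset.disjoint_sdiff
      · intro x hx
        rw [Finset.union_sdiff_self_eq_union]
        exact Finset.mem_union_right _ hx
      · intro k hk hkS
        have h1 : S k ⊆ W ∪ S i := by
          intro x hx
          rcases Finset.mem_union.1 (hkS hx) with h2 | h2
          · exact Finset.mem_union_left _ h2
          · exact hjS (Finset.mem_sdiff.1 h2).1
        have h2 := hmin k (Finset.mem_filter.2 ⟨hk, h1⟩)
        have h3 : S k \ W ⊆ S j \ W := by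
          intro x hx
          obtain ⟨h4, h5⟩ := Finset.mem_sdiff.1 hx
          exact (Finset.mem_union.1 (hkS h4)).resolve_left h5
        have h4 := Finset.eq_of_subset_of_card_le h3 h2
        rw [← h4]
        exact Finset.sdiff_subset
    · exact ⟨∅, fun h => absurd h hi⟩
  choose T hT using h
  exact ⟨T, fun W i hi => hT W i hi⟩

/-- the expected number of indices with a leftover of size `t` -/
lemma round_lemma {S : ι → Finset X} {I : Finset ι} {T : Finset X → ι → Finset X}
    (hT : ∀ W, ∀ i ∈ I, T W i ⊆ S i ∧ Disjoint W (T W i) ∧ (∃ j ∈ I, S j ⊆ W ∪ T W i) ∧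
      (∀ j ∈ I, S j ⊆ W ∪ T W i → T W i ⊆ S j))
    {l : ℕ} (hl : ∀ i ∈ I, (S i).card ≤ l) {r M : ℝ} (hr : 0 < r) (hM : 0 ≤ M)
    (hspread : ∀ Z : Finset X, ((I.filter fun i => Z ⊆ S i).card : ℝ) ≤ r ^ Z.card * M)
    (hp1 : 64 * r ≤ 1) (t : ℕ) :
    ∑ W : Finset X, bw (64 * r) W * ((I.filter fun i => (T W i).card = t).card : ℝ)
      ≤ (l.choose t : ℝ) * (1 / 64) ^ t * M := by
  set p0 : ℝ := 64 * r with hp0
  have hp0pos : 0 < p0 := by positivity
  -- number of pairs over a given union
  have hfib : ∀ Z : Finset X,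
      ((((univ : Finset (Finset X)) ×ˢ I).filter (fun q => (T q.1 q.2).card = t ∧
        q.1 ∪ T q.1 q.2 = Z)).card : ℝ) ≤ (l.choose t : ℝ) * (r ^ t * M) := by
    intro Z
    by_cases hne : (((univ : Finset (Finset X)) ×ˢ I).filter (fun q => (T q.1 q.2).card = t ∧
        q.1 ∪ T q.1 q.2 = Z)).Nonempty
    · obtain ⟨q0, hq0⟩ := hne
      obtain ⟨hq1, hq2, hq3⟩ := Finset.mem_filter.1 hq0
      obtain ⟨_, hqI⟩ := Finset.mem_product.1 hq1
      obtain ⟨_, _, ⟨j, hj, hjZ⟩, _⟩ := hT q0.1 q0.2 hqI
      rw [hq3] at hjZ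
      have h1 : (((univ : Finset (Finset X)) ×ˢ I).filter (fun q => (T q.1 q.2).card = t ∧
          q.1 ∪ T q.1 q.2 = Z)).card
          ≤ ((Finset.powersetCard t (S j)).sigma (fun U => I.filter fun i => U ⊆ S i)).card := by
        refine Finset.card_le_card_of_injOn (fun q => ⟨T q.1 q.2, q.2⟩) ?_ ?_
        · intro q hq
          obtain ⟨h2, h3, h4⟩ := Finset.mem_filter.1 (Finset.mem_coe.1 hq)
          obtain ⟨_, h5⟩ := Finset.mem_product.1 h2
          obtain ⟨h6, _, _, h7⟩ := hT q.1 q.2 h5
          refine Finset.mem_coe.2 (Finset.mem_sigma.2 ⟨?_, ?_⟩)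
          · exact Finset.mem_powersetCard.2 ⟨h7 j hj (by rw [h4]; exact hjZ), h3⟩
          · exact Finset.mem_filter.2 ⟨h5, h6⟩
        · intro q hq q' hq' he
          obtain ⟨h2, h3, h4⟩ := Finset.mem_filter.1 (Finset.mem_coe.1 hq)
          obtain ⟨_, h5⟩ := Finset.mem_product.1 h2
          obtain ⟨_, h6, _, _⟩ := hT q.1 q.2 h5
          obtain ⟨h2', h3', h4'⟩ := Finset.mem_filter.1 (Finset.mem_coe.1 hq')
          obtain ⟨_, h5'⟩ := Finset.mem_product.1 h2'
          obtain ⟨_, h6', _, _⟩ := hT q'.1 q'.2 h5'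
          have e1 : T q.1 q.2 = T q'.1 q'.2 := congrArg Sigma.fst he
          have e2 : q.2 = q'.2 := by
            have := he
            simp only [Sigma.mk.injEq] at this
            exact eq_of_heq this.2
          have e3 : q.1 = Z \ T q.1 q.2 := by
            rw [← h4, Finset.union_sdiff_cancel_right h6]
          have e4 : q'.1 = Z \ T q'.1 q'.2 := by
            rw [← h4', Finset.union_sdiff_cancel_right h6']
          have e5 : q.1 = q'.1 := by rw [e3, e4, e1]
          exact Prod.ext e5 e2
      have h2 : (((Finset.powersetCard t (S j)).sigma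
          (fun U => I.filter fun i => U ⊆ S i)).card : ℝ) ≤ (l.choose t : ℝ) * (r ^ t * M) := by
        rw [Finset.card_sigma]
        push_cast
        calc ∑ U ∈ Finset.powersetCard t (S j), ((I.filter fun i => U ⊆ S i).card : ℝ)
            ≤ ∑ U ∈ Finset.powersetCard t (S j), r ^ t * M := by
              refine Finset.sum_le_sum fun U hU => ?_
              have := hspread U
              rwa [(Finset.mem_powersetCard.1 hU).2] at this
          _ = ((S j).card.choose t : ℝ) * (r ^ t * M) := by
              rw [Finset.sum_const, Finset.card_powersetCard, nsmul_eq_mul]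
          _ ≤ (l.choose t : ℝ) * (r ^ t * M) := by
              have : (S j).card.choose t ≤ l.choose t := Nat.choose_le_choose t (hl j hj)
              have h3 : ((S j).card.choose t : ℝ) ≤ (l.choose t : ℝ) := by exact_mod_cast this
              exact mul_le_mul_of_nonneg_right h3 (by positivity)
      exact le_trans (by exact_mod_cast h1) h2
    · rw [Finset.not_nonempty_iff_eq_empty.1 hne, Finset.card_empty]
      push_cast
      positivity
  calc ∑ W : Finset X, bw p0 W * ((I.filter fun i => (T W i).card = t).card : ℝ)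
      = ∑ q ∈ ((univ : Finset (Finset X)) ×ˢ I).filter (fun q => (T q.1 q.2).card = t),
          bw p0 q.1 := by
        rw [Finset.sum_filter, Finset.sum_product]
        refine Finset.sum_congr rfl fun W _ => ?_
        rw [← Finset.sum_filter]
        simp only [Finset.sum_const, nsmul_eq_mul]
        rw [mul_comm]
    _ ≤ ∑ q ∈ ((univ : Finset (Finset X)) ×ˢ I).filter (fun q => (T q.1 q.2).card = t),
          (p0 ^ t)⁻¹ * bw p0 (q.1 ∪ T q.1 q.2) := by
        refine Finset.sum_le_sum fun q hq => ?_
        obtain ⟨h2, h3⟩ := Finset.mem_filter.1 hq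
        obtain ⟨_, h5⟩ := Finset.mem_product.1 h2
        obtain ⟨_, h6, _, _⟩ := hT q.1 q.2 h5
        have h7 := bw_union_ge hp0pos.le hp1 h6
        rw [h3] at h7
        rw [inv_mul_eq_div, le_div_iff₀ (by positivity), mul_comm]
        exact h7
    _ = ∑ Z : Finset X, ∑ q ∈ (((univ : Finset (Finset X)) ×ˢ I).filter
          (fun q => (T q.1 q.2).card = t)).filter (fun q => q.1 ∪ T q.1 q.2 = Z),
          (p0 ^ t)⁻¹ * bw p0 (q.1 ∪ T q.1 q.2) :=
        (Finset.sum_fiberwise _ (fun q : Finset X × ι => q.1 ∪ T q.1 q.2) _).symm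
    _ ≤ ∑ Z : Finset X, (p0 ^ t)⁻¹ * bw p0 Z * ((l.choose t : ℝ) * (r ^ t * M)) := by
        refine Finset.sum_le_sum fun Z _ => ?_
        have h1 : ∑ q ∈ (((univ : Finset (Finset X)) ×ˢ I).filter
          (fun q => (T q.1 q.2).card = t)).filter (fun q => q.1 ∪ T q.1 q.2 = Z),
          (p0 ^ t)⁻¹ * bw p0 (q.1 ∪ T q.1 q.2)
          = ((((univ : Finset (Finset X)) ×ˢ I).filter (fun q => (T q.1 q.2).card = t ∧
            q.1 ∪ T q.1 q.2 = Z)).card : ℝ) * ((p0 ^ t)⁻¹ * bw p0 Z) := by
          rw [Finset.filter_filter, ← nsmul_eq_mul, ← Finset.sum_const]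
          refine Finset.sum_congr rfl fun q hq => ?_
          rw [(Finset.mem_filter.1 hq).2.2]
        rw [h1, mul_comm]
        exact mul_le_mul_of_nonneg_left (hfib Z)
          (mul_nonneg (by positivity) (bw_nonneg hp0pos.le hp1 Z))
    _ = (l.choose t : ℝ) * (1 / 64) ^ t * M := by
        have h1 : (p0 ^ t)⁻¹ * r ^ t = (1 / 64) ^ t := by
          rw [hp0, mul_pow, mul_inv, mul_assoc, inv_mul_cancel₀ (by positivity), mul_one, one_div,
            inv_pow]
        calc ∑ Z : Finset X, (p0 ^ t)⁻¹ * bw p0 Z * ((l.choose t : ℝ) * (r ^ t * M))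
            = (∑ Z : Finset X, bw p0 Z) * ((l.choose t : ℝ) * ((p0 ^ t)⁻¹ * r ^ t) * M) := by
              rw [Finset.sum_mul]
              exact Finset.sum_congr rfl fun Z _ => by ring
          _ = _ := by rw [sum_bw, one_mul, h1]

end Round

section Main

variable {X ι : Type*} [Fintype X] [DecidableEq X] [DecidableEq ι]

/-- the probability that a `p`-random set contains no member -/
noncomputable def fail (p : ℝ) (S : ι → Finset X) (I : Finset ι) : ℝ :=
  ∑ W : Finset X, bw p W * (if ∃ i ∈ I, S i ⊆ W then 0 else 1)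

omit [DecidableEq ι] in
lemma fail_le_one {p : ℝ} (hp0 : 0 ≤ p) (hp1 : p ≤ 1) (S : ι → Finset X) (I : Finset ι) :
    fail p S I ≤ 1 := by
  classical
  have h : fail p S I ≤ ∑ W : Finset X, bw p W := by
    unfold fail
    refine Finset.sum_le_sum fun W _ => ?_
    have := bw_nonneg hp0 hp1 W
    split_ifs <;> linarith
  rwa [sum_bw] at h

/-- number of rounds -/
def rd (l : ℕ) : ℕ := if l = 0 then 0 else Nat.log 2 l + 1

lemma rd_half {l : ℕ} (h : l ≠ 0) : rd l = rd (l / 2) + 1 := by
  unfold rd
  rw [if_neg h]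
  by_cases h2 : l / 2 = 0
  · rw [if_pos h2]
    have : l < 2 := by omega
    rw [Nat.log_of_lt this]
  · rw [if_neg h2]
    have h3 : 2 ≤ l := by omega
    rw [Nat.log_of_one_lt_of_le (by norm_num) h3]

lemma tail_le (l : ℕ) :
    ∑ t ∈ Finset.Ioc (l / 2) l, (l.choose t : ℝ) * (1 / 64) ^ t ≤ (1 / 8) * (1 / 4) ^ l := by
  calc ∑ t ∈ Finset.Ioc (l / 2) l, (l.choose t : ℝ) * (1 / 64) ^ t
      ≤ ∑ t ∈ Finset.Ioc (l / 2) l, (l.choose t : ℝ) * (1 / 8) ^ (l + 1) := by
        refine Finset.sum_le_sum fun t ht => ?_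
        have h1 := Finset.mem_Ioc.1 ht
        have h2 : ((1 : ℝ) / 64) ^ t = (1 / 8) ^ (2 * t) := by
          rw [pow_mul]; norm_num
        rw [h2]
        apply mul_le_mul_of_nonneg_left _ (by positivity)
        apply pow_le_pow_of_le_one (by norm_num) (by norm_num)
        omega
    _ = (∑ t ∈ Finset.Ioc (l / 2) l, (l.choose t : ℝ)) * (1 / 8) ^ (l + 1) := by
        rw [Finset.sum_mul]
    _ ≤ (∑ t ∈ Finset.range (l + 1), (l.choose t : ℝ)) * (1 / 8) ^ (l + 1) := by
        apply mul_le_mul_of_nonneg_right _ (by positivity)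
        apply Finset.sum_le_sum_of_subset_of_nonneg
        · intro t ht
          have h1 := Finset.mem_Ioc.1 ht
          exact Finset.mem_range.2 (by omega)
        · intro t _ _
          positivity
    _ = 2 ^ l * (1 / 8) ^ (l + 1) := by
        have h := Nat.sum_range_choose l
        have h' : (∑ t ∈ Finset.range (l + 1), (l.choose t : ℝ)) = 2 ^ l := by exact_mod_cast h
        rw [h']
    _ = (1 / 8) * (1 / 4) ^ l := by
        rw [pow_succ, ← mul_assoc, ← mul_pow]
        norm_num
        ring

lemma main_ind {r M : ℝ} (hr : 0 < r) (hM : 0 < M) : ∀ (l : ℕ) (S : ι → Finset X)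
    (I : Finset ι), (I.card : ℝ) ≤ M → (∀ i ∈ I, (S i).card ≤ l) →
    (∀ Z : Finset X, ((I.filter fun i => Z ⊆ S i).card : ℝ) ≤ r ^ Z.card * M) →
    ∀ p : ℝ, 64 * r * (rd l : ℝ) ≤ p → p ≤ 1 →
    fail p S I ≤ (M - I.card) / M + (1 - (1 / 4) ^ l) / 2 := by
  intro l
  induction l using Nat.strong_induction_on with
  | _ l ih =>
    intro S I hI hl hsp p hp hp1
    have hp0 : 0 ≤ p := le_trans (by positivity) hp
    by_cases hl0 : l = 0
    · subst hl0
      rw [pow_zero, sub_self, zero_div, add_zero]
      by_cases hne : I.Nonempty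
      · obtain ⟨i, hi⟩ := hne
        have h1 : S i = ∅ := Finset.card_eq_zero.1 (Nat.le_zero.1 (hl i hi))
        have h2 : fail p S I = 0 := by
          unfold fail
          refine Finset.sum_eq_zero fun W _ => ?_
          rw [if_pos ⟨i, hi, by rw [h1]; exact Finset.empty_subset _⟩, mul_zero]
        rw [h2]
        apply div_nonneg (by linarith) hM.le
      · rw [Finset.not_nonempty_iff_eq_empty.1 hne, Finset.card_empty, Nat.cast_zero, sub_zero,
          div_self hM.ne']
        exact fail_le_one hp0 hp1 _ _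
    · have hrd := rd_half hl0
      have hrd' : (rd l : ℝ) = (rd (l / 2) : ℝ) + 1 := by exact_mod_cast hrd
      set p0 : ℝ := 64 * r with hp0def
      have hp0pos : 0 < p0 := by positivity
      have hrdnn : (0 : ℝ) ≤ rd (l / 2) := Nat.cast_nonneg _
      have hp0p : p0 * (rd (l / 2) : ℝ) + p0 ≤ p := by
        have : p0 * (rd l : ℝ) = p0 * (rd (l / 2) : ℝ) + p0 := by rw [hrd']; ring
        linarith
      have hp01 : p0 ≤ 1 := by nlinarith
      -- the remaining density
      obtain ⟨q, hq1, hq2, hq3⟩ : ∃ q : ℝ, q ≤ 1 ∧ p0 * (rd (l / 2) : ℝ) ≤ q ∧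
          p = 1 - (1 - p0) * (1 - q) := by
        by_cases h1 : p0 = 1
        · refine ⟨1, le_rfl, by linarith, ?_⟩
          rw [h1] at hp0p ⊢
          have : (0 : ℝ) ≤ 1 * (rd (l / 2) : ℝ) := by positivity
          linarith
        · have h2 : 0 < 1 - p0 := by
            rcases lt_or_eq_of_le hp01 with h | h
            · linarith
            · exact absurd h h1
          refine ⟨1 - (1 - p) / (1 - p0), ?_, ?_, ?_⟩
          · have : 0 ≤ (1 - p) / (1 - p0) := div_nonneg (by linarith) h2.le
            linarith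
          · have h3 : (1 - p) / (1 - p0) ≤ 1 - (p - p0) := by
              rw [div_le_iff₀ h2]
              have : 0 ≤ p0 * (rd (l / 2) : ℝ) := by positivity
              nlinarith
            linarith
          · field_simp
            ring
      have hq0 : 0 ≤ q := le_trans (by positivity) hq2
      obtain ⟨T, hT⟩ := exists_leftover S I
      -- the surviving indices
      set I' : Finset X → Finset ι := fun W => I.filter (fun i => (T W i).card ≤ l / 2) with hI'
      have hI'I : ∀ W, I' W ⊆ I := fun W => Finset.filter_subset _ _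
      have hstep : ∀ W, fail q (T W) (I' W)
          ≤ (M - (I' W).card) / M + (1 - (1 / 4) ^ (l / 2)) / 2 := by
        intro W
        refine ih (l / 2) (by omega) (T W) (I' W) ?_ ?_ ?_ q hq2 hq1
        · have : (I' W).card ≤ I.card := Finset.card_le_card (hI'I W)
          have : ((I' W).card : ℝ) ≤ I.card := by exact_mod_cast this
          linarith
        · intro i hi
          exact (Finset.mem_filter.1 hi).2
        · intro Z
          refine le_trans ?_ (hsp Z)
          have : ((I' W).filter fun i => Z ⊆ T W i).card ≤ (I.filter fun i => Z ⊆ S i).card := by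
            apply Finset.card_le_card
            intro i hi
            obtain ⟨h1, h2⟩ := Finset.mem_filter.1 hi
            have h3 := hI'I W h1
            exact Finset.mem_filter.2 ⟨h3, h2.trans (hT W i h3).1⟩
          exact_mod_cast this
      have h1 : fail p S I ≤ ∑ W : Finset X, bw p0 W * fail q (T W) (I' W) := by
        unfold fail
        rw [hq3, ← union_lemma]
        refine Finset.sum_le_sum fun W _ => ?_
        apply mul_le_mul_of_nonneg_left _ (bw_nonneg hp0pos.le hp01 W)
        refine Finset.sum_le_sum fun U _ => ?_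
        apply mul_le_mul_of_nonneg_left _ (bw_nonneg hq0 hq1 U)
        by_cases h2 : ∃ i ∈ I' W, T W i ⊆ U
        · obtain ⟨i, hi, hiU⟩ := h2
          obtain ⟨_, _, ⟨j, hj, hjS⟩, _⟩ := hT W i (hI'I W hi)
          rw [if_pos ⟨j, hj, hjS.trans (Finset.union_subset_union_right hiU)⟩]
          split_ifs <;> norm_num
        · rw [if_neg h2]
          split_ifs <;> norm_num
      -- the number of lost indices
      have h2 : ∀ W, (I.card : ℝ) - (I' W).card
          ≤ ∑ t ∈ Finset.Ioc (l / 2) l, ((I.filter fun i => (T W i).card = t).card : ℝ) := by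
        intro W
        have h3 : I.card = (I' W).card + (I.filter fun i => ¬ (T W i).card ≤ l / 2).card :=
          (Finset.card_filter_add_card_filter_not _).symm
        have h4 : (I.filter fun i => ¬ (T W i).card ≤ l / 2).card
            ≤ ∑ t ∈ Finset.Ioc (l / 2) l, (I.filter fun i => (T W i).card = t).card := by
          rw [Finset.card_eq_sum_card_fiberwise (f := fun i => (T W i).card)
            (t := Finset.Ioc (l / 2) l)]
          · refine Finset.sum_le_sum fun t _ => Finset.card_le_card ?_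
            intro i hi
            obtain ⟨h5, h6⟩ := Finset.mem_filter.1 hi
            exact Finset.mem_filter.2 ⟨(Finset.mem_filter.1 h5).1, h6⟩
          · intro i hi
            obtain ⟨h5, h6⟩ := Finset.mem_filter.1 (Finset.mem_coe.1 hi)
            refine Finset.mem_coe.2 (Finset.mem_Ioc.2 ⟨not_le.1 h6, ?_⟩)
            exact (Finset.card_le_card (hT W i h5).1).trans (hl i h5)
        have h5 : ((I.filter fun i => ¬ (T W i).card ≤ l / 2).card : ℝ)
            ≤ ∑ t ∈ Finset.Ioc (l / 2) l, ((I.filter fun i => (T W i).card = t).card : ℝ) := by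
          exact_mod_cast h4
        have h6 : (I.card : ℝ) = (I' W).card
            + (I.filter fun i => ¬ (T W i).card ≤ l / 2).card := by exact_mod_cast h3
        linarith
      have h3 : ∑ W : Finset X, bw p0 W * ((I.card : ℝ) - (I' W).card)
          ≤ (1 / 8) * (1 / 4) ^ l * M := by
        calc ∑ W : Finset X, bw p0 W * ((I.card : ℝ) - (I' W).card)
            ≤ ∑ W : Finset X, bw p0 W * ∑ t ∈ Finset.Ioc (l / 2) l,
              ((I.filter fun i => (T W i).card = t).card : ℝ) :=
              Finset.sum_le_sum fun W _ =>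
                mul_le_mul_of_nonneg_left (h2 W) (bw_nonneg hp0pos.le hp01 W)
          _ = ∑ t ∈ Finset.Ioc (l / 2) l, ∑ W : Finset X, bw p0 W
              * ((I.filter fun i => (T W i).card = t).card : ℝ) := by
              simp only [Finset.mul_sum]
              exact Finset.sum_comm
          _ ≤ ∑ t ∈ Finset.Ioc (l / 2) l, (l.choose t : ℝ) * (1 / 64) ^ t * M :=
              Finset.sum_le_sum fun t _ => round_lemma hT hl hr hM.le hsp hp01 t
          _ = (∑ t ∈ Finset.Ioc (l / 2) l, (l.choose t : ℝ) * (1 / 64) ^ t) * M := by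
              rw [Finset.sum_mul]
          _ ≤ (1 / 8) * (1 / 4) ^ l * M := mul_le_mul_of_nonneg_right (tail_le l) hM.le
      have h4 : ∑ W : Finset X, bw p0 W * fail q (T W) (I' W)
          ≤ (M - I.card) / M + (1 - (1 / 4) ^ (l / 2)) / 2 + (1 / 8) * (1 / 4) ^ l := by
        calc ∑ W : Finset X, bw p0 W * fail q (T W) (I' W)
            ≤ ∑ W : Finset X, bw p0 W * ((M - (I' W).card) / M
              + (1 - (1 / 4) ^ (l / 2)) / 2) :=
              Finset.sum_le_sum fun W _ =>
                mul_le_mul_of_nonneg_left (hstep W) (bw_nonneg hp0pos.le hp01 W)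
          _ = (∑ W : Finset X, bw p0 W) * ((M - I.card) / M + (1 - (1 / 4) ^ (l / 2)) / 2)
              + (∑ W : Finset X, bw p0 W * ((I.card : ℝ) - (I' W).card)) / M := by
              rw [Finset.sum_mul, Finset.sum_div, ← Finset.sum_add_distrib]
              refine Finset.sum_congr rfl fun W _ => ?_
              field_simp
              ring
          _ ≤ 1 * ((M - I.card) / M + (1 - (1 / 4) ^ (l / 2)) / 2)
              + ((1 / 8) * (1 / 4) ^ l * M) / M := by
              rw [sum_bw]
              gcongr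
          _ = _ := by
              rw [one_mul, mul_div_assoc, div_self hM.ne', mul_one]
      have h5 : ((1 : ℝ) / 4) ^ l * 4 ≤ (1 / 4) ^ (l / 2) := by
        have h6 : ((1 : ℝ) / 4) ^ (l - 1) ≤ (1 / 4) ^ (l / 2) :=
          pow_le_pow_of_le_one (by norm_num) (by norm_num) (by omega)
        have h7 : ((1 : ℝ) / 4) ^ l = (1 / 4) ^ (l - 1) * (1 / 4) := by
          rw [← pow_succ]
          congr 1
          omega
        rw [h7]
        linarith
      have h6 : (0 : ℝ) ≤ (1 / 4) ^ l := by positivity
      linarith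

end Main

open Classical in
/-- Spread lemma. If the indexed family `S` of sets of size at most `l` is `r`-spread, then for
`p ≥ 64 r (log₂ l + 1)` a `p`-random set contains a member with probability at least `1/2`. -/
theorem spread_lemma {X ι : Type*} [Fintype X] [Fintype ι] [Nonempty ι]
    (S : ι → Finset X) (l : ℕ) (hl : ∀ i, (S i).card ≤ l) (r : ℝ) (hr : 0 < r)
    (hspread : ∀ Z : Finset X,
      ((univ.filter fun i => Z ⊆ S i).card : ℝ) ≤ r ^ Z.card * Fintype.card ι)
    (p : ℝ) (hp : 64 * r * (Nat.log 2 l + 1) ≤ p) (hp1 : p ≤ 1) :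
    1 / 2 ≤ ∑ W : Finset X, if ∃ i, S i ⊆ W then bw p W else 0 := by
  have hM : (0 : ℝ) < Fintype.card ι := by exact_mod_cast Fintype.card_pos
  have hrd : (rd l : ℝ) ≤ Nat.log 2 l + 1 := by
    unfold rd
    split_ifs
    · push_cast
      positivity
    · push_cast
      exact le_rfl
  have hp' : 64 * r * (rd l : ℝ) ≤ p :=
    le_trans (mul_le_mul_of_nonneg_left hrd (by positivity)) hp
  have h1 := main_ind hr hM l S (univ : Finset ι) (by rw [Finset.card_univ]) (fun i _ => hl i)
    hspread p hp' hp1
  rw [Finset.card_univ, sub_self, zero_div, zero_add] at h1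
  have h2 : (∑ W : Finset X, if ∃ i, S i ⊆ W then bw p W else 0) + fail p S (univ : Finset ι)
      = 1 := by
    refine Eq.trans ?_ (sum_bw (X := X) p)
    unfold fail
    rw [← Finset.sum_add_distrib]
    refine Finset.sum_congr rfl fun W _ => ?_
    by_cases h : ∃ i, S i ⊆ W
    · obtain ⟨i, hi⟩ := h
      rw [if_pos ⟨i, hi⟩, if_pos ⟨i, Finset.mem_univ i, hi⟩, mul_zero, add_zero]
    · rw [if_neg h, if_neg (fun ⟨i, _, hi⟩ => h ⟨i, hi⟩), mul_one, zero_add]
  have h3 : (0 : ℝ) ≤ (1 / 4) ^ l := by positivity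
  linarith

end VP064
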