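import Vale.Agent.P064.Compare
import Vale.Agent.P064.Spread

/-!
# Final assembly
-/

namespace VP064

open Finset

lemma exists_emb {n : ℕ} {W : Type} [Fintype W] (hW : Fintype.card W ≤ n) :
    Nonempty (W ↪ Fin n) := by
  rw [← Fintype.card_fin n] at hW
  exact Function.Embedding.nonempty_of_card_le hW

lemma hh_le_log (s : ℕ) : hh s ≤ 1 + Real.log s := by
  have h := harmonic_le_one_add_log s
  have h2 : ((harmonic s : ℚ) : ℝ) = hh s := by
    unfold hh harmonic
    push_cast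
    apply Finset.sum_congr rfl
    intro i _
    rw [one_div]
  rw [← h2]
  exact h

lemma edgesOf_card_le {n : ℕ} {W : Type} [Fintype W] (H : SimpleGraph W) (j : W ↪ Fin n) :
    (edgesOf H j).card ≤ n.choose 2 := by
  classical
  have h := SimpleGraph.card_edgeFinset_le_card_choose_two (G := H.map j)
  rw [Fintype.card_fin] at h
  unfold edgesOf
  exact h

lemma edgesOf_card_pos {n : ℕ} {W : Type} [Fintype W] (H : SimpleGraph W) (j : W ↪ Fin n)
    (hH : H ≠ ⊥) : 0 < (edgesOf H j).card := by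
  rw [edgesOf_card]
  rw [Set.ncard_pos]
  exact SimpleGraph.edgeSet_nonempty.mpr hH

lemma choose_two_le {n : ℕ} (hn : 2 ≤ n) : ((n.choose 2 : ℕ) : ℝ) ≤ (n : ℝ) ^ 2 / 2 := by
  rw [Nat.cast_choose_two]
  have : (0 : ℝ) ≤ n := by positivity
  nlinarith

lemma log_choose_le {n m : ℕ} (hn : 2 ≤ n) (hm0 : 0 < m) (hm : m ≤ n.choose 2) :
    Real.log m ≤ 2 * Real.log n - Real.log 2 := by
  have hn0 : (0 : ℝ) < n := by
    have : 0 < n := by omega
    exact_mod_cast this
  have h1 : (m : ℝ) ≤ (n : ℝ) ^ 2 / 2 :=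
    le_trans (by exact_mod_cast hm) (choose_two_le hn)
  have h2 : Real.log m ≤ Real.log ((n : ℝ) ^ 2 / 2) :=
    Real.log_le_log (by exact_mod_cast hm0) h1
  rw [Real.log_div (by positivity) (by norm_num), Real.log_pow] at h2
  exact_mod_cast h2

/-- `e·h_m ≤ 7 log n` -/
lemma exp_hh_le {n m : ℕ} (hn : 2 ≤ n) (hm0 : 0 < m) (hm : m ≤ n.choose 2) :
    Real.exp 1 * hh m ≤ 7 * Real.log n := by
  have h1 := hh_le_log m
  have h2 := log_choose_le hn hm0 hm
  have h3 : Real.log 2 ≤ Real.log n :=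
    Real.log_le_log (by norm_num) (by exact_mod_cast hn)
  have h4 := Real.log_two_gt_d9
  have h5 := Real.exp_one_lt_d9
  have h6 : hh m ≤ 5 / 2 * Real.log n := by
    have : hh m ≤ 1 + (2 * Real.log n - Real.log 2) := by linarith
    nlinarith
  have h7 : 0 ≤ hh m := hh_nonneg m
  have h8 : 0 < Real.exp 1 := Real.exp_pos 1
  have h9 : (0 : ℝ) ≤ 5 / 2 * Real.log n := le_trans h7 h6
  calc Real.exp 1 * hh m ≤ Real.exp 1 * (5 / 2 * Real.log n) :=
        mul_le_mul_of_nonneg_left h6 h8.le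
    _ ≤ 2.8 * (5 / 2 * Real.log n) := by
        apply mul_le_mul_of_nonneg_right _ h9
        linarith
    _ = 7 * Real.log n := by ring

lemma p_pos {n : ℕ} {W : Type} [Fintype W] (H : SimpleGraph W) (j : W ↪ Fin n)
    (hH : H ≠ ⊥) {p : ℝ} (hp0 : 0 ≤ p)
    (hp : ∀ F : H.Subgraph, 1 / 2 ≤ expCopies n p F.coe) : 0 < p := by
  classical
  rcases hp0.lt_or_eq with h | h
  · exact h
  · exfalso
    have h1 := hp ⊤
    rw [expCopies_eq] at h1
    have h2 : (⊤ : H.Subgraph).coe.edgeSet.ncard ≠ 0 := by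
      have h3 : (⊤ : H.Subgraph).coe.edgeSet.ncard = H.edgeSet.ncard := by
        rw [← Nat.card_coe_set_eq, ← Nat.card_coe_set_eq]
        exact Nat.card_congr SimpleGraph.Subgraph.topIso.mapEdgeSet
      rw [h3]
      have := edgesOf_card_pos H j hH
      rw [edgesOf_card] at this
      omega
    rw [← h, zero_pow h2, mul_zero] at h1
    norm_num at h1

lemma copyCount_le_top {n : ℕ} {W : Type} [Fintype W] (H : SimpleGraph W) (j : W ↪ Fin n)
    (F : H.Subgraph) :
    (H.copyCount F.coe : ℝ) ≤ ((⊤ : SimpleGraph (Fin n)).copyCount F.coe : ℝ) := by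
  classical
  have h1 : H.copyCount F.coe ≤ (H.map j).copyCount F.coe :=
    copyCount_le_of_copy _ _ (copyMap H j) _
  have h2 : (H.map j).copyCount F.coe ≤ (⊤ : SimpleGraph (Fin n)).copyCount F.coe :=
    copyCount_le_of_copy _ _ (SimpleGraph.Copy.ofLE _ _ le_top) _
  exact_mod_cast h1.trans h2

lemma edgeFinset_inst {V : Type} (G : SimpleGraph V) (i1 i2 : Fintype G.edgeSet) :
    @SimpleGraph.edgeFinset _ G i1 = @SimpleGraph.edgeFinset _ G i2 := by
  rw [Subsingleton.elim i1 i2]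

/-- The key bound on copies. -/
lemma copies_bound {n : ℕ} {W : Type} [Fintype W] (H : SimpleGraph W) (j : W ↪ Fin n)
    {p : ℝ} (hp0 : 0 < p) (hp : ∀ F : H.Subgraph, 1 / 2 ≤ expCopies n p F.coe)
    (F : H.Subgraph) :
    (H.copyCount F.coe : ℝ) ≤ ((⊤ : SimpleGraph (Fin n)).copyCount F.coe : ℝ) *
      (Real.exp 1 * hh (edgesOf H j).card * (2 * p)) ^ F.coe.edgeSet.ncard := by
  classical
  have h1 : (H.copyCount F.coe : ℝ) ≤ ((H.map j).copyCount F.coe : ℝ) := by
    exact_mod_cast copyCount_le_of_copy _ _ (copyMap H j) F.coe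
  have h2 := cc_graph F.coe (jj j F) (H.map j)
  have h3 := main_cc H j hp0 hp (edgesOf F.coe (jj j F))
  rw [edgesOf_card F.coe (jj j F)] at h3
  have h4 : ∀ inst : Fintype (H.map j).edgeSet,
      @SimpleGraph.edgeFinset _ (H.map j) inst = edgesOf H j := by
    intro inst
    exact edgeFinset_inst _ _ _
  rw [h4] at h2
  have hfac : (0 : ℝ) < n.factorial := by exact_mod_cast n.factorial_pos
  have hN : (0 : ℝ) ≤ ((⊤ : SimpleGraph (Fin n)).copyCount F.coe : ℝ) := by positivity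
  have h5 := mul_le_mul_of_nonneg_right h3 hN
  rw [h2] at h5
  set Q := (Real.exp 1 * hh (edgesOf H j).card * (2 * p)) ^ F.coe.edgeSet.ncard with hQ
  have h6 : (n.factorial : ℝ) * ((H.map j).copyCount F.coe : ℝ) ≤
      n.factorial * (((⊤ : SimpleGraph (Fin n)).copyCount F.coe : ℝ) * Q) := by
    calc _ ≤ _ := h5
      _ = _ := by ring
  exact h1.trans (le_of_mul_le_mul_left h6 hfac)

theorem pEt_le {n : ℕ} {W : Type} [Fintype W] (H : SimpleGraph W) (hn : 2 ≤ n)
    (hW : Fintype.card W ≤ n) (hH : H ≠ ⊥) {p : ℝ} (hp0 : 0 ≤ p)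
    (hp : ∀ F : H.Subgraph, 1 / 2 ≤ expCopies n p F.coe) :
    pEt n H ≤ 14 * Real.log n * p := by
  classical
  obtain ⟨j⟩ := exists_emb hW
  have hppos : 0 < p := p_pos H j hH hp0 hp
  set L : ℝ := Real.exp 1 * hh (edgesOf H j).card * (2 * p) with hL
  have hL0 : 0 ≤ L := by
    have := hh_nonneg (edgesOf H j).card
    positivity
  have hLle : L ≤ 14 * Real.log n * p := by
    have h1 := exp_hh_le hn (edgesOf_card_pos H j hH) (edgesOf_card_le H j)
    calc L = (Real.exp 1 * hh (edgesOf H j).card) * (2 * p) := hL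
      _ ≤ (7 * Real.log n) * (2 * p) := mul_le_mul_of_nonneg_right h1 (by positivity)
      _ = _ := by ring
  have hmem : min 1 L ∈ {p : ℝ | 0 ≤ p ∧ p ≤ 1 ∧
      ∀ F : H.Subgraph, (H.copyCount F.coe : ℝ) / 2 ≤ expCopies n p F.coe} := by
    refine ⟨le_min zero_le_one hL0, min_le_left _ _, ?_⟩
    intro F
    have hc0 : (0 : ℝ) ≤ (H.copyCount F.coe : ℝ) := by positivity
    rw [expCopies_eq]
    rcases le_total 1 L with h | h
    · rw [min_eq_left h, one_pow, mul_one]
      have := copyCount_le_top H j F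
      linarith
    · rw [min_eq_right h]
      have := copies_bound H j hppos hp F
      linarith
  have hbdd : BddBelow {p : ℝ | 0 ≤ p ∧ p ≤ 1 ∧
      ∀ F : H.Subgraph, (H.copyCount F.coe : ℝ) / 2 ≤ expCopies n p F.coe} :=
    ⟨0, fun x hx => hx.1⟩
  have h1 : pEt n H ≤ min 1 L := csInf_le hbdd hmem
  exact h1.trans ((min_le_right _ _).trans hLle)

lemma pE_set_nonempty {n : ℕ} {W : Type} [Fintype W] (H : SimpleGraph W)
    (hW : Fintype.card W ≤ n) :
    {p : ℝ | 0 ≤ p ∧ p ≤ 1 ∧ ∀ F : H.Subgraph, 1 / 2 ≤ expCopies n p F.coe}.Nonempty := by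
  classical
  obtain ⟨j⟩ := exists_emb hW
  refine ⟨1, zero_le_one, le_rfl, ?_⟩
  intro F
  rw [expCopies_eq, one_pow, mul_one]
  have h1 := copyCount_le_top H j F
  have h2 : 0 < H.copyCount F.coe := by
    rw [SimpleGraph.copyCount_pos]
    exact F.coe_isContained
  have h3 : (1 : ℝ) ≤ (H.copyCount F.coe : ℝ) := by exact_mod_cast h2
  linarith

/-- `p̃_E ≤ 14 log n · p_E`. -/
theorem log_compare {n : ℕ} {W : Type} [Fintype W] (H : SimpleGraph W) (hn : 2 ≤ n)
    (hW : Fintype.card W ≤ n) (hH : H ≠ ⊥) :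
    pEt n H ≤ 14 * Real.log n * pE n H := by
  have hlog : 0 < Real.log n := Real.log_pos (by exact_mod_cast (by omega : 1 < n))
  have h14 : 0 < 14 * Real.log n := by positivity
  have h1 : pEt n H / (14 * Real.log n) ≤ pE n H := by
    apply le_csInf (pE_set_nonempty H hW)
    rintro p ⟨hp0, _, hp⟩
    rw [div_le_iff₀ h14]
    have := pEt_le H hn hW hH hp0 hp
    linarith
  rw [div_le_iff₀ h14] at h1
  linarith

end VP064
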