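import Vale.Agent.P064.Final

/-!
# `p_c ≤ C log² n · p_E`
-/

namespace VP064

open Finset

/-- the potential edges -/
abbrev XX (n : ℕ) : Type := {e : Sym2 (Fin n) // ¬ e.IsDiag}

/-- the graph with a given set of edges -/
def toGr {n : ℕ} (A : Finset (XX n)) : SimpleGraph (Fin n) :=
  SimpleGraph.fromEdgeSet {e | ∃ h : ¬ e.IsDiag, (⟨e, h⟩ : XX n) ∈ A}

lemma toGr_edgeSet {n : ℕ} (A : Finset (XX n)) :
    (toGr A).edgeSet = Subtype.val '' (A : Set (XX n)) := by
  unfold toGr
  rw [SimpleGraph.edgeSet_fromEdgeSet]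
  ext e
  simp only [Set.mem_sdiff, Set.mem_ofPred_eq, Set.mem_image, Finset.mem_coe, Subtype.exists,
    exists_and_right, exists_eq_right]
  constructor
  · rintro ⟨⟨h, he⟩, _⟩
    exact ⟨h, he⟩
  · rintro ⟨h, he⟩
    exact ⟨⟨h, he⟩, h⟩

lemma toGr_ncard {n : ℕ} (A : Finset (XX n)) : (toGr A).edgeSet.ncard = A.card := by
  rw [toGr_edgeSet, Set.ncard_image_of_injective _ Subtype.coe_injective, Set.ncard_coe_finset]

open Classical in
/-- graphs correspond to sets of edges -/
noncomputable def grEquiv (n : ℕ) : Finset (XX n) ≃ SimpleGraph (Fin n) where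
  toFun := toGr
  invFun G := univ.filter fun e : XX n => e.1 ∈ G.edgeSet
  left_inv A := by
    ext e
    rw [Finset.mem_filter, toGr_edgeSet]
    simp only [Finset.mem_univ, true_and, Set.mem_image, Finset.mem_coe]
    constructor
    · rintro ⟨x, hx, hxe⟩
      rwa [← Subtype.coe_injective hxe]
    · intro he
      exact ⟨e, he, rfl⟩
  right_inv G := by
    apply SimpleGraph.edgeSet_injective
    rw [toGr_edgeSet]
    ext e
    simp only [Set.mem_image, Finset.coe_filter, Finset.mem_univ, true_and, Set.mem_ofPred_eq]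
    constructor
    · rintro ⟨x, hx, rfl⟩
      exact hx
    · intro he
      exact ⟨⟨e, G.not_isDiag_of_mem_edgeSet he⟩, he, rfl⟩

lemma card_XX (n : ℕ) : Fintype.card (XX n) = n.choose 2 := by
  have h := Sym2.card_subtype_not_diag (α := Fin n)
  rw [Fintype.card_fin] at h
  rw [← h]

open Classical in
lemma probContains_eq {n : ℕ} {W : Type} (p : ℝ) (H : SimpleGraph W) :
    probContains n p H =
      ∑ A : Finset (XX n), if 0 < (toGr A).copyCount H then bw p A else 0 := by
  unfold probContains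
  rw [← Equiv.sum_comp (grEquiv n)]
  apply Finset.sum_congr rfl
  intro A _
  have h1 : grEquiv n A = toGr A := rfl
  have h2 : gnpWeight n p (toGr A) = bw p A := by
    unfold gnpWeight bw
    rw [toGr_ncard, card_XX]
  rw [h1, h2]

lemma bw_nn {X : Type*} [Fintype X] {p : ℝ} (hp0 : 0 ≤ p) (hp1 : p ≤ 1) (A : Finset X) :
    0 ≤ bw p A := mul_nonneg (pow_nonneg hp0 _) (pow_nonneg (by linarith) _)

/-- the family of copies -/
noncomputable def fam {n : ℕ} (E : Finset (Sym2 (Fin n))) (g : Equiv.Perm (Fin n)) :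
    Finset (XX n) := by
  classical exact univ.filter fun e : XX n => e.1 ∈ act g E

lemma mem_fam {n : ℕ} (E : Finset (Sym2 (Fin n))) (g : Equiv.Perm (Fin n)) (e : XX n) :
    e ∈ fam E g ↔ e.1 ∈ act g E := by
  unfold fam
  rw [Finset.mem_filter]
  simp

lemma act_card {n : ℕ} (g : Equiv.Perm (Fin n)) (A : Finset (Sym2 (Fin n))) :
    (act g A).card = A.card := by
  simp [act]

lemma fam_card_le {n : ℕ} (E : Finset (Sym2 (Fin n))) (g : Equiv.Perm (Fin n)) :
    (fam E g).card ≤ E.card := by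
  rw [← act_card g E]
  apply Finset.card_le_card_of_injOn (fun e : XX n => e.1)
  · intro e he
    exact (mem_fam E g e).mp he
  · intro a _ b _ hab
    exact Subtype.ext hab

lemma fam_subset_iff {n : ℕ} (E : Finset (Sym2 (Fin n))) (g : Equiv.Perm (Fin n))
    (Z : Finset (XX n)) :
    Z ⊆ fam E g ↔ act g⁻¹ (Z.map (Function.Embedding.subtype _)) ⊆ E := by
  constructor
  · intro h x hx
    unfold act at hx
    rw [Finset.mem_map] at hx
    obtain ⟨y, hy, rfl⟩ := hx
    rw [Finset.mem_map] at hy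
    obtain ⟨z, hz, rfl⟩ := hy
    have h1 := (mem_fam E g z).mp (h hz)
    unfold act at h1
    rw [Finset.mem_map] at h1
    obtain ⟨w, hw, hwz⟩ := h1
    simp only [Function.Embedding.coeFn_mk] at hwz
    simp only [Function.Embedding.coeFn_mk, Function.Embedding.subtype_apply]
    rw [← hwz, Sym2.map_map]
    have h2 : (⇑(g⁻¹) ∘ ⇑g : Fin n → Fin n) = id := by
      ext a
      simp
    rw [h2, Sym2.map_id]
    exact hw
  · intro h z hz
    rw [mem_fam]
    unfold act
    rw [Finset.mem_map]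
    refine ⟨Sym2.map (g⁻¹ : Equiv.Perm (Fin n)) z.1, ?_, ?_⟩
    · apply h
      unfold act
      rw [Finset.mem_map]
      refine ⟨z.1, ?_, rfl⟩
      rw [Finset.mem_map]
      exact ⟨z, hz, rfl⟩
    · simp only [Function.Embedding.coeFn_mk]
      rw [Sym2.map_map]
      have h2 : (⇑g ∘ ⇑(g⁻¹) : Fin n → Fin n) = id := by
        ext a
        simp
      rw [h2, Sym2.map_id]
      rfl

lemma fam_spread {n : ℕ} {W : Type} [Fintype W] (H : SimpleGraph W) (j : W ↪ Fin n)
    {p : ℝ} (hp0 : 0 < p) (hp : ∀ F : H.Subgraph, 1 / 2 ≤ expCopies n p F.coe)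
    (Z : Finset (XX n))
    (inst : DecidablePred fun g : Equiv.Perm (Fin n) => Z ⊆ fam (edgesOf H j) g) :
    ((@Finset.filter _ (fun g : Equiv.Perm (Fin n) => Z ⊆ fam (edgesOf H j) g) inst
      univ).card : ℝ) ≤
      (Real.exp 1 * hh (edgesOf H j).card * (2 * p)) ^ Z.card *
        Fintype.card (Equiv.Perm (Fin n)) := by
  classical
  have hcard : (Fintype.card (Equiv.Perm (Fin n)) : ℝ) = n.factorial := by
    rw [Fintype.card_perm, Fintype.card_fin]
  have h1 := main_cc H j hp0 hp (Z.map (Function.Embedding.subtype _))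
  rw [Finset.card_map, cc_eq_card] at h1
  rw [hcard]
  refine le_trans (le_of_eq ?_) h1
  congr 1
  apply Finset.card_bij (fun g _ => g⁻¹)
  · intro g hg
    rw [Finset.mem_filter] at hg ⊢
    exact ⟨Finset.mem_univ _, (fam_subset_iff _ _ _).mp hg.2⟩
  · intro a _ b _ hab
    exact inv_injective hab
  · intro g hg
    rw [Finset.mem_filter] at hg
    refine ⟨g⁻¹, ?_, inv_inv g⟩
    rw [Finset.mem_filter, fam_subset_iff, inv_inv]
    exact ⟨Finset.mem_univ _, hg.2⟩

lemma contains_of_fam {n : ℕ} {W : Type} [Fintype W] (H : SimpleGraph W) (j : W ↪ Fin n)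
    (g : Equiv.Perm (Fin n)) (A : Finset (XX n)) (h : fam (edgesOf H j) g ⊆ A) :
    0 < (toGr A).copyCount H := by
  classical
  rw [SimpleGraph.copyCount_pos]
  refine ⟨⟨⟨fun a => g (j a), ?_⟩, ?_⟩⟩
  · intro a b hab
    have hne : ¬ (s(g (j a), g (j b)) : Sym2 (Fin n)).IsDiag := by
      rw [Sym2.mk_isDiag_iff]
      intro h'
      exact hab.ne (j.injective (g.injective h'))
    have h1 : (⟨s(g (j a), g (j b)), hne⟩ : XX n) ∈ fam (edgesOf H j) g := by
      rw [mem_fam]
      unfold act
      rw [Finset.mem_map]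
      refine ⟨s(j a, j b), ?_, ?_⟩
      · unfold edgesOf
        rw [SimpleGraph.mem_edgeFinset, SimpleGraph.mem_edgeSet, SimpleGraph.map_adj]
        exact ⟨a, b, hab, rfl, rfl⟩
      · simp
    have h2 : s(g (j a), g (j b)) ∈ (toGr A).edgeSet := by
      rw [toGr_edgeSet]
      exact ⟨_, h h1, rfl⟩
    exact h2
  · intro a b hab
    exact j.injective (g.injective hab)

lemma probContains_one {n : ℕ} {W : Type} [Fintype W] (H : SimpleGraph W) (j : W ↪ Fin n) :
    1 / 2 ≤ probContains n 1 H := by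
  classical
  rw [probContains_eq]
  have h1 : (if 0 < (toGr (univ : Finset (XX n))).copyCount H then
      bw (1 : ℝ) (univ : Finset (XX n)) else 0) = 1 := by
    rw [if_pos (contains_of_fam H j 1 _ (Finset.subset_univ _))]
    unfold bw
    simp
  have h2 : (if 0 < (toGr (univ : Finset (XX n))).copyCount H then
      bw (1 : ℝ) (univ : Finset (XX n)) else 0) ≤
      ∑ A : Finset (XX n), if 0 < (toGr A).copyCount H then bw (1 : ℝ) A else 0 := by
    apply Finset.single_le_sum (f := fun A : Finset (XX n) =>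
      if 0 < (toGr A).copyCount H then bw (1 : ℝ) A else 0) _ (Finset.mem_univ _)
    intro A _
    split_ifs
    · exact bw_nn zero_le_one le_rfl A
    · exact le_rfl
  rw [h1] at h2
  linarith

lemma natlog_bound {n m : ℕ} (hn : 2 ≤ n) (hm0 : 0 < m) (hm : m ≤ n.choose 2) :
    (Nat.log 2 m : ℝ) + 1 ≤ 3 * Real.log n := by
  have h1 : (Nat.log 2 m : ℝ) ≤ Real.logb 2 m := by
    have := Real.natLog_le_logb m 2
    exact_mod_cast this
  have h2 := log_choose_le hn hm0 hm
  have h4 := Real.log_two_gt_d9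
  have h5 : Real.logb 2 m = Real.log m / Real.log 2 := rfl
  have h6 : Real.log m / Real.log 2 ≤ (2 * Real.log n - Real.log 2) / Real.log 2 := by
    apply div_le_div_of_nonneg_right h2
    linarith
  have h7 : (2 * Real.log n - Real.log 2) / Real.log 2 = 2 * Real.log n / Real.log 2 - 1 := by
    rw [sub_div, div_self (by linarith)]
  have hln : 0 < Real.log n := Real.log_pos (by exact_mod_cast (by omega : 1 < n))
  have h8 : 2 * Real.log n / Real.log 2 ≤ 3 * Real.log n := by
    rw [div_le_iff₀ (by linarith)]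
    nlinarith
  rw [h5] at h1
  linarith

theorem pC_le {n : ℕ} {W : Type} [Fintype W] (H : SimpleGraph W) (hn : 2 ≤ n)
    (hW : Fintype.card W ≤ n) (hH : H ≠ ⊥) {p : ℝ} (hp0 : 0 ≤ p)
    (hp : ∀ F : H.Subgraph, 1 / 2 ≤ expCopies n p F.coe) :
    pC n H ≤ 2688 * Real.log n ^ 2 * p := by
  classical
  obtain ⟨j⟩ := exists_emb hW
  have hppos : 0 < p := p_pos H j hH hp0 hp
  have hm0 := edgesOf_card_pos H j hH
  have hm := edgesOf_card_le H j
  set L : ℝ := Real.exp 1 * hh (edgesOf H j).card * (2 * p) with hL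
  have hhpos : 0 < hh (edgesOf H j).card := by
    unfold hh
    apply Finset.sum_pos
    · intro i _
      positivity
    · rw [Finset.nonempty_range_iff]
      omega
  have hL0 : 0 < L := by positivity
  have hln : 0 < Real.log n := Real.log_pos (by exact_mod_cast (by omega : 1 < n))
  have hLle : L ≤ 14 * Real.log n * p := by
    have h1 := exp_hh_le hn hm0 hm
    calc L = (Real.exp 1 * hh (edgesOf H j).card) * (2 * p) := hL
      _ ≤ (7 * Real.log n) * (2 * p) := mul_le_mul_of_nonneg_right h1 (by positivity)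
      _ = _ := by ring
  set P : ℝ := 64 * L * (Nat.log 2 (edgesOf H j).card + 1) with hP
  have hPle : P ≤ 2688 * Real.log n ^ 2 * p := by
    have h1 := natlog_bound hn hm0 hm
    have h2 : (0 : ℝ) ≤ (Nat.log 2 (edgesOf H j).card : ℝ) + 1 := by positivity
    calc P = 64 * (L * ((Nat.log 2 (edgesOf H j).card : ℝ) + 1)) := by rw [hP]; ring
      _ ≤ 64 * ((14 * Real.log n * p) * (3 * Real.log n)) := by
        apply mul_le_mul_of_nonneg_left _ (by norm_num)
        exact mul_le_mul hLle h1 h2 (by positivity)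
      _ = _ := by ring
  have hP0 : 0 ≤ P := by positivity
  have hbdd : BddBelow {p : ℝ | 0 ≤ p ∧ p ≤ 1 ∧ 1 / 2 ≤ probContains n p H} :=
    ⟨0, fun x hx => hx.1⟩
  rcases le_total P 1 with h | h
  · have hmem : P ∈ {p : ℝ | 0 ≤ p ∧ p ≤ 1 ∧ 1 / 2 ≤ probContains n p H} := by
      refine ⟨hP0, h, ?_⟩
      have hs := spread_lemma (fam (edgesOf H j)) (edgesOf H j).card
        (fun g => fam_card_le _ g) L hL0 (fun Z => fam_spread H j hppos hp Z _) P le_rfl h
      rw [probContains_eq]
      refine hs.trans ?_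
      apply Finset.sum_le_sum
      intro A _
      by_cases hA : ∃ g, fam (edgesOf H j) g ⊆ A
      · rw [if_pos hA]
        obtain ⟨g, hg⟩ := hA
        rw [if_pos (contains_of_fam H j g A hg)]
      · rw [if_neg hA]
        split_ifs
        · exact bw_nn hP0 h A
        · exact le_rfl
    exact (csInf_le hbdd hmem).trans hPle
  · have hmem : (1 : ℝ) ∈ {p : ℝ | 0 ≤ p ∧ p ≤ 1 ∧ 1 / 2 ≤ probContains n p H} :=
      ⟨zero_le_one, le_rfl, probContains_one H j⟩
    exact (csInf_le hbdd hmem).trans (h.trans hPle)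

/-- `p_c ≤ 2688 log² n · p_E`. -/
theorem log_sq {n : ℕ} {W : Type} [Fintype W] (H : SimpleGraph W) (hn : 2 ≤ n)
    (hW : Fintype.card W ≤ n) (hH : H ≠ ⊥) :
    pC n H ≤ 2688 * Real.log n ^ 2 * pE n H := by
  have hlog : 0 < Real.log n := Real.log_pos (by exact_mod_cast (by omega : 1 < n))
  have h14 : 0 < 2688 * Real.log n ^ 2 := by positivity
  have h1 : pC n H / (2688 * Real.log n ^ 2) ≤ pE n H := by
    apply le_csInf (pE_set_nonempty H hW)
    rintro p ⟨hp0, _, hp⟩
    rw [div_le_iff₀ h14]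
    have := pC_le H hn hW hH hp0 hp
    linarith
  rw [div_le_iff₀ h14] at h1
  linarith

end VP064
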